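import Vale.Agent.P315.H873.Feed

/-!
# The feed with a general prefix

The feed is the list `pre ++ [c 0, …, c (N - 1)]` with the seeds `c i = ρ (k + i) % e` (`k` = number
of random words used before) and `pre` = contents of the registers in the list `rs`.
`feedProg2 rs` stores its reverse in array `3`: register `70` contains `N`, register `71` contains
`e`; registers `72`, `73` are used as scratch.
-/

set_option autoImplicit false

namespace Vale.Agent.P315.H873

open Vale.Agent.P315

/-- The feed with the prefix `pre`. -/
def feedG (ρ : ℕ → ℕ) (k e N : ℕ) (pre : List ℕ) : List ℕ :=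
  pre ++ (List.range N).map fun i => ρ (k + i) % e

@[simp] theorem feedG_length (ρ : ℕ → ℕ) (k e N : ℕ) (pre : List ℕ) :
    (feedG ρ k e N pre).length = pre.length + N := by
  simp [feedG]

theorem feedG_reverse_getD_seed (ρ : ℕ → ℕ) (k e N : ℕ) (pre : List ℕ) {i : ℕ} (hi : i < N) :
    (feedG ρ k e N pre).reverse.getD i 0 = ρ (k + (N - 1 - i)) % e := by
  have hlen : i < ((List.range N).map fun i => ρ (k + i) % e).reverse.length := by simpa
  rw [feedG, List.reverse_append, List.getD_append _ _ _ _ hlen, List.getD_eq_getElem?_getD,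
    List.getElem?_eq_getElem hlen, Option.getD_some, List.getElem_reverse]
  simp

theorem feedG_reverse_getD_pre (ρ : ℕ → ℕ) (k e N : ℕ) (pre : List ℕ) (i : ℕ) :
    (feedG ρ k e N pre).reverse.getD (N + i) 0 = pre.reverse.getD i 0 := by
  have hlen : ((List.range N).map fun i => ρ (k + i) % e).reverse.length ≤ N + i := by simp
  rw [feedG, List.reverse_append, List.getD_append_right _ _ _ _ hlen]
  congr 1
  simp

/-- Store the contents of registers in array `3`, from the address in register `72` on. -/
def putRegs : List ℕ → Prog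
  | [] => .set 73 (.lit 0)
  | r :: rs => .seq (.put 3 (.reg 72) (.reg r)) (.seq (.set 72 (eadd (.reg 72) (.lit 1)))
      (putRegs rs))

theorem putRegs_wr (rs : List ℕ) : ∀ k ∈ (putRegs rs).wr, k = 72 ∨ k = 73 := by
  induction rs with
  | nil => intro k hk; simp [putRegs, Prog.wr] at hk; omega
  | cons r rs ih =>
    intro k hk
    simp only [putRegs, Prog.wr, List.mem_append, List.mem_cons, List.not_mem_nil, or_false,
      false_or] at hk
    rcases hk with h | h
    · omega
    · exact ih k h

theorem putRegs_wa (rs : List ℕ) : ∀ k ∈ (putRegs rs).wa, k = 3 := by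
  induction rs with
  | nil => intro k hk; simp [putRegs, Prog.wa] at hk
  | cons r rs ih =>
    intro k hk
    simp only [putRegs, Prog.wa, List.mem_append, List.mem_cons, List.not_mem_nil, or_false,
      false_or] at hk
    rcases hk with h | h
    · exact h
    · exact ih k h

theorem putRegs_norand (rs : List ℕ) : (putRegs rs).norand = true := by
  induction rs with
  | nil => rfl
  | cons r rs ih => simp [putRegs, Prog.norand, ih]

theorem putRegs_spec {E : Env} : ∀ (rs : List ℕ) (s : State) (a : ℕ), s.reg 72 = a →
    a + rs.length ≤ E.R → (∀ r ∈ rs, r ≠ 72 ∧ r ≠ 73) →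
    Spec E s (putRegs rs) (7 * rs.length + 2) (fun s' => ∀ p, s'.arr 3 p =
      if a ≤ p ∧ p < a + rs.length then s.reg (rs.getD (p - a) 0) else s.arr 3 p) := by
  intro rs
  induction rs with
  | nil =>
    intro s a h hR hrs
    refine (Spec.set (a := 2) (d := 0) 0 rfl (by simp [Expr.cost]) rfl (fun _ => Nat.zero_le _)
      fun _ p => ?_).le (by simp)
    rw [if_neg (by simp), State.setReg_arr]
  | cons r rs ih =>
    intro s a h hR hrs
    have hr := hrs r (by simp)
    simp only [List.length_cons] at hR
    refine (Spec.put_seq (a := 3) (d := 7 * rs.length + 6) a (s.reg r) (by omega) rfl rfl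
      (by simp [Expr.cost]) (show (Expr.reg 72).eval s = a from h) rfl
      (fun hb => hb.reg r) ?_).le (by simp only [List.length_cons]; omega)
    refine (Spec.set_seq (a := 4) (d := 7 * rs.length + 2) (a + 1) rfl (by simp [Expr.cost, eadd])
      ?_ (fun _ => by omega) ?_).le (by simp only [Expr.cost]; omega)
    · simp [h]
    · refine (ih (((s.setArr 3 a (s.reg r)).setReg 72 (a + 1))) (a + 1) (by simp) (by omega)
        fun r' hr' => hrs r' (by simp [hr'])).mono (by omega) ?_
      intro s' hs' p
      rw [hs' p]
      simp only [List.length_cons]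
      by_cases h2 : a + 1 ≤ p ∧ p < a + 1 + rs.length
      · rw [if_pos h2, if_pos (by omega)]
        have h3 : p - a = (p - (a + 1)) + 1 := by omega
        have h5 : p - (a + 1) < rs.length := by omega
        have h6 := hrs (rs.getD (p - (a + 1)) 0) (by
          rw [List.getD_eq_getElem?_getD, List.getElem?_eq_getElem h5, Option.getD_some]
          exact List.mem_cons_of_mem _ (List.getElem_mem h5))
        rw [h3, List.getD_cons_succ, State.setReg_reg, if_neg h6.1, State.setArr_reg]
      · rw [if_neg h2, State.setReg_arr, State.setArr_arr]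
        by_cases h1 : p = a
        · subst h1
          rw [if_pos ⟨rfl, rfl⟩, if_pos (by omega)]
          simp
        · rw [if_neg (by simp [h1]), if_neg (by omega)]

/-- The reverse of the feed is stored in array `3`. -/
def feedProg2 (rs : List ℕ) : Prog :=
  .seq (.loop 72 (.reg 70) feedCell) (.seq (.set 72 (.reg 70)) (putRegs rs.reverse))

theorem feedProg2_wr (rs : List ℕ) : ∀ k ∈ (feedProg2 rs).wr, k = 72 ∨ k = 73 := by
  intro k hk
  simp only [feedProg2, feedCell, Prog.wr, List.mem_append, List.mem_cons, List.not_mem_nil,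
    or_false, false_or] at hk
  rcases hk with h | h | h
  · omega
  · omega
  · exact putRegs_wr _ k h

theorem feedProg2_wa (rs : List ℕ) : ∀ j ∈ (feedProg2 rs).wa, j = 3 := by
  intro k hk
  simp only [feedProg2, feedCell, Prog.wa, List.mem_append, List.mem_cons, List.not_mem_nil,
    or_false, false_or] at hk
  rcases hk with h | h
  · exact h
  · exact putRegs_wa _ k h

theorem feedProg2_spec {E : Env} {s : State} {N e : ℕ} {rs : List ℕ} (h70 : s.reg 70 = N)
    (h71 : s.reg 71 = e) (he : 0 < e) (hR : N + rs.length ≤ E.R)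
    (hrs : ∀ r ∈ rs, r ≠ 72 ∧ r ≠ 73) :
    Spec E s (feedProg2 rs) (14 * N + 7 * rs.length + 6) (fun s' => s'.coins = s.coins + N ∧
      ∀ i, i < (feedG E.ρ s.coins e N (rs.map s.reg)).reverse.length →
        s'.arr 3 i = (feedG E.ρ s.coins e N (rs.map s.reg)).reverse.getD i 0) := by
  unfold feedProg2
  refine Spec.mono (Spec.seq (a := 4) (d := N * 14 + (7 * rs.length + 2)) 2 (N * 14) 2
    (7 * rs.length + 2) (fun s' => s'.coins = s.coins + N ∧
      ∀ p, p < N → s'.arr 3 p = E.ρ (s.coins + (N - 1 - p)) % e) (by omega) (by omega)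
    (feedLoop_spec h70 h71 he) ?_) (by omega) fun _ h => h
  rintro s' hf ⟨i1, i2⟩
  have hreg : ∀ r, r ≠ 72 → r ≠ 73 → s'.reg r = s.reg r := by
    intro r h1 h2
    refine hf.reg r ?_
    simp [feedCell, Prog.wr, h1, h2]
  have g70 : s'.reg 70 = N := by rw [hreg 70 (by omega) (by omega)]; exact h70
  refine Spec.set_seq (a := 2) (d := 7 * rs.length + 2) N rfl (by simp [Expr.cost]) g70
    (fun _ => by omega) ?_
  refine Spec.mono ((putRegs_spec (E := E) rs.reverse (s'.setReg 72 N) N (by simp)
    (by rw [List.length_reverse]; exact hR) fun r hr => hrs r (by simpa using hr)).withCoins (putRegs_norand _))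
    (by simp [Expr.cost]) ?_
  rintro s'' ⟨k1, k2⟩
  refine ⟨by rw [k1]; exact i1, fun i hi => ?_⟩
  rw [List.length_reverse, feedG_length, List.length_map] at hi
  rw [k2]
  simp only [List.length_reverse, State.setReg_arr]
  rcases lt_or_ge i N with h | h
  · rw [if_neg (by omega), i2 i h, feedG_reverse_getD_seed _ _ _ _ _ h]
  · obtain ⟨j, rfl⟩ := Nat.exists_eq_add_of_le h
    have hj : j < rs.reverse.length := by rw [List.length_reverse]; omega
    have hj' : j < (rs.map s.reg).reverse.length := by simp; omega
    rw [if_pos (by omega), feedG_reverse_getD_pre, Nat.add_sub_cancel_left]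
    have h1 : rs.reverse.getD j 0 = rs.reverse[j] := by
      rw [List.getD_eq_getElem?_getD, List.getElem?_eq_getElem hj, Option.getD_some]
    have h2 : (rs.map s.reg).reverse.getD j 0 = (rs.map s.reg).reverse[j] := by
      rw [List.getD_eq_getElem?_getD, List.getElem?_eq_getElem hj', Option.getD_some]
    rw [h1, h2]
    have h3 : rs.reverse[j] ∈ rs := by simp
    obtain ⟨h4, h5⟩ := hrs _ h3
    rw [State.setReg_reg, if_neg h4, hreg _ h4 h5]
    simp [← List.map_reverse]

end Vale.Agent.P315.H873
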