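import Vale.Agent.P315.H527.Total
import Vale.Agent.P315.H608.SubQ

/-!
# The running time of the multiplicative version: the three kinds of terms
-/

set_option autoImplicit false

namespace Vale.Agent.P315.H873

open Real Vale.Agent.P315.H809 Vale.Agent.P315.H527 Vale.Agent.P315.H608

/-! ### Polynomials in the number of rows -/

/-- `f` is at most a polynomial in the number of rows. -/
def PK (c : Cst) (f : ℕ → ℕ) : Prop := ∃ C a : ℕ, ∀ g, f g ≤ C * c.K g ^ a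

section PK
variable {c : Cst} {f f' : ℕ → ℕ}

theorem PK.mono (h : PK c f) (hle : ∀ g, f' g ≤ f g) : PK c f' := by
  obtain ⟨C, a, h⟩ := h
  exact ⟨C, a, fun g => (hle g).trans (h g)⟩

theorem PK.const (n : ℕ) : PK c (fun _ => n) := ⟨n, 0, fun g => by simp⟩

theorem PK.K : PK c c.K := ⟨1, 1, fun g => by simp⟩

theorem PK.add (h : PK c f) (h' : PK c f') : PK c (fun g => f g + f' g) := by
  obtain ⟨C, a, h⟩ := h
  obtain ⟨C', a', h'⟩ := h'
  refine ⟨C + C', a + a', fun g => ?_⟩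
  have hK := Cst.K_pos (c := c) g
  have h1 : c.K g ^ a ≤ c.K g ^ (a + a') := Nat.pow_le_pow_right hK (by omega)
  have h2 : c.K g ^ a' ≤ c.K g ^ (a + a') := Nat.pow_le_pow_right hK (by omega)
  calc f g + f' g ≤ C * c.K g ^ (a + a') + C' * c.K g ^ (a + a') :=
        Nat.add_le_add ((h g).trans (Nat.mul_le_mul_left _ h1))
          ((h' g).trans (Nat.mul_le_mul_left _ h2))
    _ = _ := by ring

theorem PK.mul (h : PK c f) (h' : PK c f') : PK c (fun g => f g * f' g) := by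
  obtain ⟨C, a, h⟩ := h
  obtain ⟨C', a', h'⟩ := h'
  refine ⟨C * C', a + a', fun g => ?_⟩
  calc f g * f' g ≤ (C * c.K g ^ a) * (C' * c.K g ^ a') := Nat.mul_le_mul (h g) (h' g)
    _ = _ := by rw [pow_add]; ring

theorem PK.pow (h : PK c f) (k : ℕ) : PK c (fun g => f g ^ k) := by
  obtain ⟨C, a, h⟩ := h
  refine ⟨C ^ k, a * k, fun g => ?_⟩
  calc f g ^ k ≤ (C * c.K g ^ a) ^ k := Nat.pow_le_pow_left (h g) k
    _ = _ := by rw [mul_pow, ← pow_mul]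

theorem PK.L : PK c c.L := PK.K.mono fun g => (Cst.L_lt_K g).le

theorem PK.S : PK c c.S := ((PK.const 288).mul PK.K).mono fun g => Cst.S_le g

/-- powers of two with a fraction of the number of levels as exponent -/
theorem PK.two_pow_L (h b : ℕ) : PK c (fun g => 2 ^ (c.L g / h + b)) := by
  refine ((PK.const (2 ^ b)).mul PK.K).mono fun g => ?_
  rw [pow_add, Nat.mul_comm]
  apply Nat.mul_le_mul_left
  calc 2 ^ (c.L g / h) ≤ 2 ^ c.L g := Nat.pow_le_pow_right (by norm_num) (Nat.div_le_self _ _)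
    _ ≤ c.K g := Cst.two_pow_L_le g

/-- powers of two with a multiple of `2 ^ S` as exponent -/
theorem PK.two_pow_S (a b : ℕ) : PK c (fun g => 2 ^ (a * 2 ^ c.S g + b)) := by
  refine ((PK.const (2 ^ b)).mul ((((PK.const 96).mul PK.K).pow 6).pow a)).mono fun g => ?_
  rw [pow_add, Nat.mul_comm, Nat.mul_comm a, pow_mul]
  exact Nat.mul_le_mul_left _ (Nat.pow_le_pow_left (Cst.two_pow_two_pow_S_le g) a)

/-- one exponent for everything -/
theorem PK.bound (h : PK c f) : ∃ a : ℕ, ∀ q n : ℕ, 1 ≤ q → f (lev0 c.M q n) ≤ (n + 2) ^ a := by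
  obtain ⟨C, a, h⟩ := h
  refine ⟨C + a, fun q n hq => (h _).trans ?_⟩
  have h1 : c.K (lev0 c.M q n) ≤ n + 2 := (Cst.K_le hq n).trans (by omega)
  calc C * c.K (lev0 c.M q n) ^ a ≤ (n + 2) ^ C * (n + 2) ^ a := by
        apply Nat.mul_le_mul _ (Nat.pow_le_pow_left h1 a)
        calc C ≤ 2 ^ C := Nat.lt_two_pow_self.le
          _ ≤ (n + 2) ^ C := Nat.pow_le_pow_left (by omega) _
    _ = _ := by rw [pow_add]

end PK

/-! ### Polynomials in the number of rows, times a smaller power -/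

variable {c : Cst}

theorem K_pow_rpow {q a r : ℕ} (hr : 0 < r) (h : a * r ≤ q) (N : ℕ) :
    ((c.K (lev0 c.M q N) : ℝ)) ^ a ≤ ((N : ℝ) + 1) ^ (1 / (r : ℝ)) := by
  have h1 : ((c.K (lev0 c.M q N)) ^ a) ^ r ≤ N + 1 := by
    rw [← pow_mul]
    exact Cst.K_pow_le_of_le h N
  have h2 : (((c.K (lev0 c.M q N) : ℝ)) ^ a) ^ r ≤ (N : ℝ) + 1 := by exact_mod_cast h1
  have h0 : (0 : ℝ) ≤ ((c.K (lev0 c.M q N) : ℝ)) ^ a := by positivity
  have hr' : (0 : ℝ) < r := by exact_mod_cast hr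
  calc ((c.K (lev0 c.M q N) : ℝ)) ^ a
      = ((((c.K (lev0 c.M q N) : ℝ)) ^ a) ^ r) ^ (1 / (r : ℝ)) := by
        rw [← Real.rpow_natCast _ r, ← Real.rpow_mul h0, mul_one_div_cancel hr'.ne',
          Real.rpow_one]
    _ ≤ _ := Real.rpow_le_rpow (by positivity) h2 (by positivity)

/-- a polynomial in `K` times `(N + 1) ^ (39 / 20)` -/
theorem subQ_poly {q a : ℕ} (h : a * 40 ≤ q) (C : ℝ) (hC : 0 ≤ C) (b : ℕ) :
    SubQ (fun N => C * (c.K (lev0 c.M q N) : ℝ) ^ a * ((N : ℝ) + 1) ^ (39 / 20 : ℝ) *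
      Cst.G N ^ b) := by
  have h1 : SubQ (fun N : ℕ => C * (c.K (lev0 c.M q N) : ℝ) ^ a *
      ((N : ℝ) + 1) ^ (39 / 20 : ℝ)) := by
    refine ⟨1 / 40, C, by norm_num, by norm_num, hC, fun N => ?_⟩
    have h2 := K_pow_rpow (c := c) (q := q) (a := a) (r := 40) (by norm_num) h N
    have hN : (0 : ℝ) < (N : ℝ) + 1 := by positivity
    calc C * (c.K (lev0 c.M q N) : ℝ) ^ a * ((N : ℝ) + 1) ^ (39 / 20 : ℝ)
        ≤ C * ((N : ℝ) + 1) ^ (1 / ((40 : ℕ) : ℝ)) * ((N : ℝ) + 1) ^ (39 / 20 : ℝ) :=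
          mul_le_mul_of_nonneg_right (mul_le_mul_of_nonneg_left h2 hC) (by positivity)
      _ = C * ((N : ℝ) + 1) ^ (2 - 1 / 40 : ℝ) := by
          rw [mul_assoc, ← Real.rpow_add hN]
          norm_num
  exact h1.mul_log b

/-- natural numbers -/
theorem subQ_of_poly {q a : ℕ} (h : a * 40 ≤ q) {T : ℕ → ℕ} {C b : ℕ}
    (hT : ∀ N, T N ≤ C * c.K (lev0 c.M q N) ^ a * (N + 1) * Cst.lg N ^ b) :
    SubQ (fun N => (T N : ℝ)) := by
  refine (subQ_poly (c := c) h (C : ℝ) (Nat.cast_nonneg _) b).mono fun N => ?_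
  have h1 : (T N : ℝ) ≤ ((C * c.K (lev0 c.M q N) ^ a * (N + 1) * Cst.lg N ^ b : ℕ) : ℝ) :=
    Nat.cast_le.2 (hT N)
  refine h1.trans ?_
  push_cast
  rw [Cst.lg_cast]
  have hG := Cst.G_one_le N
  apply mul_le_mul_of_nonneg_right _ (by positivity)
  apply mul_le_mul_of_nonneg_left _ (by positivity)
  calc (N : ℝ) + 1 = ((N : ℝ) + 1) ^ (1 : ℝ) := (Real.rpow_one _).symm
    _ ≤ _ := Real.rpow_le_rpow_of_exponent_le (one_le_base N) (by norm_num)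

/-! ### The area part -/

theorem poly_le_exp' (a : ℕ) {γ : ℝ} (hγ : 0 < γ) :
    ∃ C : ℝ, 0 ≤ C ∧ ∀ n : ℕ, ((n : ℝ) + 1) ^ a ≤ C * Real.exp (γ * n) := by
  refine ⟨(a.factorial / γ ^ a) * Real.exp γ, by positivity, fun n => ?_⟩
  have h1 := Real.pow_div_factorial_le_exp (γ * ((n : ℝ) + 1)) (by positivity) a
  rw [div_le_iff₀ (by positivity), mul_pow] at h1
  have h2 : Real.exp (γ * ((n : ℝ) + 1)) = Real.exp γ * Real.exp (γ * n) := by
    rw [← Real.exp_add]; congr 1; ring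
  rw [h2] at h1
  have h3 : 0 < γ ^ a := by positivity
  calc ((n : ℝ) + 1) ^ a = (γ ^ a * ((n : ℝ) + 1) ^ a) / γ ^ a := by field_simp
    _ ≤ (Real.exp γ * Real.exp (γ * n) * a.factorial) / γ ^ a :=
        div_le_div_of_nonneg_right h1 h3.le
    _ = _ := by ring

/-- `2 ^ 2 ^ S` is a polynomial in the number of levels -/
theorem two_pow_two_pow_S_le_L (g : ℕ) : 2 ^ 2 ^ c.S g ≤ (96 * (c.L g + 1)) ^ 6 := by
  calc 2 ^ 2 ^ c.S g ≤ 2 ^ (6 * (Nat.log 2 (g + 2) + 1)) :=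
        Nat.pow_le_pow_right (by norm_num) (Cst.two_pow_S_le' g)
    _ = (2 ^ Nat.log 2 (g + 2) * 2) ^ 6 := by rw [← pow_succ, ← pow_mul, Nat.mul_comm]
    _ ≤ (96 * (c.L g + 1)) ^ 6 := by
        apply Nat.pow_le_pow_left
        have h1 := Nat.pow_log_le_self 2 (x := g + 2) (by omega)
        have h2 := Cst.g_le (c := c) g
        omega

theorem two_pow_z_le (e₀ e₁ g : ℕ) :
    (2 : ℝ) ^ (e₀ * 2 ^ c.S g + e₁) ≤ 2 ^ e₁ * 96 ^ (6 * e₀) * ((c.L g : ℝ) + 1) ^ (6 * e₀) := by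
  have h1 : 2 ^ (e₀ * 2 ^ c.S g + e₁) ≤ 2 ^ e₁ * 96 ^ (6 * e₀) * (c.L g + 1) ^ (6 * e₀) := by
    calc 2 ^ (e₀ * 2 ^ c.S g + e₁) = 2 ^ e₁ * (2 ^ 2 ^ c.S g) ^ e₀ := by
          rw [pow_add, Nat.mul_comm, Nat.mul_comm e₀, pow_mul]
      _ ≤ 2 ^ e₁ * ((96 * (c.L g + 1)) ^ 6) ^ e₀ :=
          Nat.mul_le_mul_left _ (Nat.pow_le_pow_left (two_pow_two_pow_S_le_L g) _)
      _ = _ := by rw [← pow_mul, mul_pow]; ring
  exact_mod_cast h1

/-- The area: `K ^ 2 exp (- γ L)` cells, times powers of `2 ^ w` and of `2 ^ z`, times the square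
of the length of a row. -/
theorem subQ_area {q : ℕ} (hq : 1 ≤ q) {γ : ℝ} (hγ : 0 < γ) {A₀ : ℕ} (hA1 : 1 ≤ A₀) (a e₀ e₁ : ℕ)
    (hA : 2 * (a : ℝ) ≤ γ * A₀) (C : ℝ) (hC : 0 ≤ C) :
    SubQ (fun N => C * (((c.K (lev0 c.M q N) : ℝ) ^ 2 *
        Real.exp (-(γ * c.L (lev0 c.M q N)))) * ((2 : ℝ) ^ (c.L (lev0 c.M q N) / A₀)) ^ a *
        (2 : ℝ) ^ (e₀ * 2 ^ c.S (lev0 c.M q N) + e₁) *
        ((N : ℝ) / c.K (lev0 c.M q N) + 1) ^ 2)) := by
  obtain ⟨D, hD0, hD⟩ := poly_le_exp' (6 * e₀) (γ := γ / 4) (by positivity)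
  have hs := subQ_exp (B := c.B) (M := c.M) (q := q) c.hB c.hM hq (c := γ / 4) (by positivity)
  refine (hs.const_mul (c := 4 * C * (2 ^ e₁ * 96 ^ (6 * e₀) * D)) (by positivity)).mono
    fun N => ?_
  have hLe : lev c.B c.M q N = c.L (lev0 c.M q N) := (Cst.L_lev0 q N).symm
  simp only [hLe]
  set g := lev0 c.M q N with hg
  have hK : (1 : ℝ) ≤ c.K g := Cst.K_real g
  have hKN : (c.K g : ℝ) ≤ (N : ℝ) + 1 := by exact_mod_cast Cst.K_le hq N
  have h1 : ((2 : ℝ) ^ (c.L g / A₀)) ^ a * Real.exp (-(γ * c.L g)) ≤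
      Real.exp (-(γ / 2 * c.L g)) :=
    two_pow_mul_exp_le a hA1 hA (Nat.mul_div_le _ _)
  have h2 := two_pow_z_le (c := c) e₀ e₁ g
  have h3 := hD (c.L g)
  have h4 : (2 : ℝ) ^ (e₀ * 2 ^ c.S g + e₁) ≤
      (2 ^ e₁ * 96 ^ (6 * e₀) * D) * Real.exp (γ / 4 * c.L g) := by
    refine h2.trans ?_
    calc 2 ^ e₁ * 96 ^ (6 * e₀) * ((c.L g : ℝ) + 1) ^ (6 * e₀)
        ≤ 2 ^ e₁ * 96 ^ (6 * e₀) * (D * Real.exp (γ / 4 * c.L g)) :=
          mul_le_mul_of_nonneg_left h3 (by positivity)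
      _ = _ := by ring
  have h5 : Real.exp (-(γ / 2 * c.L g)) * Real.exp (γ / 4 * c.L g) =
      Real.exp (-(γ / 4 * c.L g)) := by
    rw [← Real.exp_add]; congr 1; ring
  have h6 : (c.K g : ℝ) ^ 2 * ((N : ℝ) / c.K g + 1) ^ 2 ≤ 4 * ((N : ℝ) + 1) ^ 2 := by
    have hK0 : (0 : ℝ) < c.K g := by linarith
    have e1 : (c.K g : ℝ) ^ 2 * ((N : ℝ) / c.K g + 1) ^ 2 = ((N : ℝ) + c.K g) ^ 2 := by
      field_simp
    rw [e1]
    have hN0 : (0 : ℝ) ≤ N := Nat.cast_nonneg _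
    nlinarith
  have hE := Real.exp_pos (-(γ / 2 * (c.L g : ℝ)))
  calc C * (((c.K g : ℝ) ^ 2 * Real.exp (-(γ * c.L g))) * ((2 : ℝ) ^ (c.L g / A₀)) ^ a *
        (2 : ℝ) ^ (e₀ * 2 ^ c.S g + e₁) * ((N : ℝ) / c.K g + 1) ^ 2)
      = C * ((((2 : ℝ) ^ (c.L g / A₀)) ^ a * Real.exp (-(γ * c.L g))) *
        (2 : ℝ) ^ (e₀ * 2 ^ c.S g + e₁) * ((c.K g : ℝ) ^ 2 * ((N : ℝ) / c.K g + 1) ^ 2)) := by
        ring
    _ ≤ C * ((Real.exp (-(γ / 2 * c.L g)) *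
        ((2 ^ e₁ * 96 ^ (6 * e₀) * D) * Real.exp (γ / 4 * c.L g))) *
        (4 * ((N : ℝ) + 1) ^ 2)) := by
        apply mul_le_mul_of_nonneg_left _ hC
        apply mul_le_mul _ h6 (by positivity) (by positivity)
        exact mul_le_mul h1 h4 (by positivity) hE.le
    _ = 4 * C * (2 ^ e₁ * 96 ^ (6 * e₀) * D) *
        (((N : ℝ) + 1) ^ 2 * (Real.exp (-(γ / 2 * c.L g)) * Real.exp (γ / 4 * c.L g))) := by
        ring
    _ = _ := by rw [h5]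

/-! ### The band -/

/-- the band: `(N + 1) (N / 2 ^ w + 1)` -/
theorem subQ_band {q : ℕ} (hq : 1 ≤ q) {A₀ : ℕ} (hA1 : 1 ≤ A₀) (C : ℝ) (hC : 0 ≤ C) :
    SubQ (fun N => C * (((N : ℝ) + 1) * ((N : ℝ) / (2 : ℝ) ^ (c.L (lev0 c.M q N) / A₀) + 1))) := by
  have hl2 : 0 < Real.log 2 := Real.log_pos (by norm_num)
  have hA0 : (0 : ℝ) < A₀ := by exact_mod_cast hA1
  have hs := subQ_exp (B := c.B) (M := c.M) (q := q) c.hB c.hM hq (c := Real.log 2 / A₀)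
    (by positivity)
  refine ((hs.const_mul (c := 2 * C) (by positivity)).add
    (subQ_lin.const_mul (c := C) hC)).mono fun N => ?_
  have hLe : lev c.B c.M q N = c.L (lev0 c.M q N) := (Cst.L_lev0 q N).symm
  simp only [hLe]
  set g := lev0 c.M q N with hg
  have hN0 : (0 : ℝ) ≤ N := Nat.cast_nonneg _
  have h1 : (1 : ℝ) / (2 : ℝ) ^ (c.L g / A₀) ≤ 2 * Real.exp (-(Real.log 2 / A₀ * c.L g)) := by
    have h2 : (c.L g : ℝ) / A₀ ≤ ((c.L g / A₀ : ℕ) : ℝ) + 1 := by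
      rw [div_le_iff₀ hA0]
      have h3 : c.L g < (c.L g / A₀ + 1) * A₀ := by
        have := Nat.lt_mul_div_succ (c.L g) hA1
        rw [Nat.mul_comm]; exact this
      have h4 : (c.L g : ℝ) < (((c.L g / A₀ : ℕ) : ℝ) + 1) * A₀ := by exact_mod_cast h3
      linarith
    have h5 : (2 : ℝ) ^ (c.L g / A₀) = Real.exp (Real.log 2 * ((c.L g / A₀ : ℕ) : ℝ)) := by
      rw [← Real.rpow_natCast, Real.rpow_def_of_pos (by norm_num)]
    have h6 : (2 : ℝ) = Real.exp (Real.log 2) := (Real.exp_log (by norm_num)).symm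
    rw [h5, one_div, ← Real.exp_neg]
    calc Real.exp (-(Real.log 2 * ((c.L g / A₀ : ℕ) : ℝ)))
        ≤ Real.exp (Real.log 2 + -(Real.log 2 / A₀ * c.L g)) := by
          apply Real.exp_le_exp.2
          have := mul_le_mul_of_nonneg_left h2 hl2.le
          have h7 : Real.log 2 * ((c.L g : ℝ) / A₀) = Real.log 2 / A₀ * c.L g := by ring
          linarith
      _ = 2 * Real.exp (-(Real.log 2 / A₀ * c.L g)) := by
          rw [Real.exp_add, ← h6]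
  have h2 : (N : ℝ) / (2 : ℝ) ^ (c.L g / A₀) ≤
      ((N : ℝ) + 1) * (2 * Real.exp (-(Real.log 2 / A₀ * c.L g))) := by
    rw [div_eq_mul_one_div]
    exact mul_le_mul (by linarith) h1 (by positivity) (by positivity)
  calc C * (((N : ℝ) + 1) * ((N : ℝ) / (2 : ℝ) ^ (c.L g / A₀) + 1))
      ≤ C * (((N : ℝ) + 1) * (((N : ℝ) + 1) *
        (2 * Real.exp (-(Real.log 2 / A₀ * c.L g))) + 1)) := by
        apply mul_le_mul_of_nonneg_left _ hC
        apply mul_le_mul_of_nonneg_left _ (by positivity)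
        linarith
    _ = _ := by ring

end Vale.Agent.P315.H873
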