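import Vale.Agent.P315.H873.Glue2
import Vale.Agent.P315.H140.Coins

/-!
# From specifications to `Solves`: prefix, and a lower bound for the number of random words
-/

set_option autoImplicit false

open Finset

namespace Vale.Agent.P315.H873

open Vale.Agent.P315 Vale.Agent.P315.H731 Vale.Agent.P315.H992

/-- A program for long strings with a specification whose output is a function of the feed
`pre x y ++ seeds`; for short strings the edit distance is computed exactly. -/
theorem solves_split3 {Big : Prog} {good : List ℕ → List ℕ → ℕ → Prop} {t : ℕ → ℝ}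
    {n0 c0 S : ℕ} (hn0 : 1 ≤ n0) (hc0 : 2 * n0 + 1 ≤ 2 ^ c0) (hS : 100 ≤ S)
    (T N e : List ℕ → List ℕ → ℕ) (pre : List ℕ → List ℕ → List ℕ)
    (Out : List ℕ → List ℕ → List ℕ → ℕ)
    (hspec : ∀ (x y : List ℕ) (E : Env), n0 ≤ max x.length y.length →
      E.R = (max x.length y.length + 2) ^ c0 → E.S = S →
      Spec E (State.init x y) Big (T x y) (fun s' => N x y ≤ s'.coins ∧
        s'.reg 2 = Out x y (feedG E.ρ 0 (e x y) (N x y) (pre x y))))
    (ht : ∀ x y : List ℕ, n0 ≤ max x.length y.length →
      ((T x y + 8 : ℕ) : ℝ) ≤ t (max x.length y.length))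
    (ht0 : ∀ n : ℕ, n < n0 → ((360 * ((n0 + 1) * (2 * n0 + 1)) + 10 : ℕ) : ℝ) ≤ t n)
    (he : ∀ x y : List ℕ, n0 ≤ max x.length y.length → ∃ j, e x y = 2 ^ j ∧
      2 ^ j ≤ (max x.length y.length + 2) ^ (c0 * S + 1))
    (hgood0 : ∀ x y : List ℕ, good x y (ED x y))
    (hgood : ∀ x y : List ℕ, n0 ≤ max x.length y.length →
      2 * Nat.card (Fin (N x y) → Fin (e x y)) ≤ 3 * Nat.card {c : Fin (N x y) → Fin (e x y) //
        good x y (Out x y (feedP (pre x y) c))}) :
    Top.Solves (split n0 (small n0) Big) good t (c0 * S + 1) := by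
  classical
  have hc0' : 1 ≤ c0 := by
    by_contra h
    obtain rfl : c0 = 0 := by omega
    simp at hc0
    omega
  refine solves_of_spec_ge hc0' hS
    (fun x y => if max x.length y.length < n0 then 360 * ((n0 + 1) * (2 * n0 + 1)) + 10
      else T x y + 8)
    (fun x y => if max x.length y.length < n0 then 0 else N x y)
    (fun x y ρ => if max x.length y.length < n0 then ED x y
      else Out x y (feedG ρ 0 (e x y) (N x y) (pre x y))) ?_ ?_ ?_
  · intro x y E hR hES
    have hR0 : 2 * n0 + 1 ≤ E.R := by
      rw [hR]
      exact hc0.trans (Nat.pow_le_pow_left (by omega) c0)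
    by_cases hlt : max x.length y.length < n0
    · simp only [if_pos hlt]
      refine (split_spec (d := 360 * ((n0 + 1) * (2 * n0 + 1)) + 2) (by omega) (fun _ => ?_)
        (fun h => absurd hlt (by omega))).le (by omega)
      exact (small_spec (by omega) (by omega) hR0).mono le_rfl fun s' h => ⟨Nat.zero_le _, h.2⟩
    · simp only [if_neg hlt]
      refine (split_spec (d := T x y) (by omega) (fun h => absurd h hlt)
        (fun h => hspec x y E h hR hES)).le (by omega)
  · intro x y
    by_cases hlt : max x.length y.length < n0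
    · simp only [if_pos hlt]
      exact ht0 _ hlt
    · simp only [if_neg hlt]
      exact ht x y (by omega)
  · intro x y b T' hb hT'
    by_cases hlt : max x.length y.length < n0
    · simp only [if_pos hlt]
      have : Nat.card {ρ : Fin T' → Fin (2 ^ b) // good x y (ED x y)} =
          Nat.card (Fin T' → Fin (2 ^ b)) := by
        refine Nat.card_congr (Equiv.subtypeUnivEquiv fun _ => hgood0 x y)
      rw [this]
      omega
    · simp only [if_neg hlt] at hT' ⊢
      obtain ⟨j, hj1, hj2⟩ := he x y (by omega)
      refine feedG_two_thirds (pre x y) hT' ?_ (fun l => good x y (Out x y l))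
        (hgood x y (by omega))
      rw [hj1]
      exact pow_dvd_pow 2 ((Nat.pow_le_pow_iff_right (by norm_num)).mp (hj2.trans hb))

end Vale.Agent.P315.H873
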