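import Vale.Agent.P315.H608.Cst2
import Vale.Agent.P315.H36.ParPT
import Vale.Agent.P315.H933.Fit
import Vale.Agent.P315.H486.Inst2
import Vale.Agent.P315.H54.ShiftFree

/-!
# The parameters of the multiplicative version in the form of the main program
-/

set_option autoImplicit false

namespace Vale.Agent.P315.H873

open Vale.Agent.Lib.PolyTime Vale.Agent.P315.H809 Vale.Agent.P315.H527 Vale.Agent.P315.H608

/-- sum of the lengths -/
def sl (p : ℕ × ℕ) : ℕ := p.1 + p.2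

section

variable (c : Cst2) (q : ℕ)

/-- number of levels before rounding, for the two lengths -/
def gp (p : ℕ × ℕ) : ℕ := lev0 c.M q (sl p)

theorem pt_sl : PT ∅ sl := PT.add PT.fst' PT.snd'

theorem pt_gp : PT ∅ (gp c q) := PT_lev0 c.hM q pt_sl

theorem pb_gp : PBd (gp c q) := PBd_lev0 c.M q pt_sl

/-- end of the path in the frame, as a function of the two lengths -/
def pe2 (p : ℕ × ℕ) : ℕ :=
  (p.1 + (c.K (gp c q p) * (2 * c.ℓh (sl p) (gp c q p)) - p.1 - p.2) / 2 +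
    c.c0 (sl p) (gp c q p) - c.K (gp c q p) * c.ℓh (sl p) (gp c q p)) /
      c.μ2 (sl p) (gp c q p) * c.μ2 (sl p) (gp c q p)

theorem pe2_eq (x y : List ℕ) : pe2 c q (x.length, y.length) =
    H54.pendF x y (c.μ2 (x.length + y.length) (lev0 c.M q (x.length + y.length)))
      (c.ℓh (x.length + y.length) (lev0 c.M q (x.length + y.length)))
      (c.c0 (x.length + y.length) (lev0 c.M q (x.length + y.length)))
      (c.K (lev0 c.M q (x.length + y.length))) := rfl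

theorem pt_pe2 : PT ∅ (pe2 c q) := by
  have hμ := c.PT_μ2 pt_sl (pt_gp c q) (pb_gp c q)
  have hK := c.PT_K (pt_gp c q) (pb_gp c q)
  have hl := c.PT_ℓh pt_sl (pt_gp c q) (pb_gp c q)
  exact PT.mul (PT.div (PT.sub (PT.add (PT.add PT.fst' (PT.div (PT.sub (PT.sub
    (PT.mul hK (PT.mul (PT.const 2) hl)) PT.fst') PT.snd') (PT.const 2)))
    (c.PT_c0 pt_sl (pt_gp c q) (pb_gp c q))) (PT.mul hK hl)) hμ) hμ

/-- The parameters of the table as functions of the two lengths. -/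
def GF : H36.StF (ℕ × ℕ) where
  e p := c.se (sl p) (gp c q p)
  lam p := c.lam (gp c q p)
  kap p := c.kap (gp c q p)
  Kr p := c.K (gp c q p)
  nS p := c.nS (sl p) (gp c q p)
  mu p := c.μ2 (sl p) (gp c q p)
  l2 p := c.ℓh (sl p) (gp c q p)
  c0 p := c.c0 (sl p) (gp c q p)

theorem GF_pts : (GF c q).PTs ∅ where
  e := c.PT_se pt_sl (pt_gp c q) (pb_gp c q)
  lam := c.PT_lam (pt_gp c q)
  kap := c.PT_kap (pt_gp c q)
  Kr := c.PT_K (pt_gp c q) (pb_gp c q)
  nS := c.PT_nS pt_sl (pt_gp c q) (pb_gp c q)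
  mu := c.PT_μ2 pt_sl (pt_gp c q) (pb_gp c q)
  l2 := c.PT_ℓh pt_sl (pt_gp c q) (pb_gp c q)
  c0 := c.PT_c0 pt_sl (pt_gp c q) (pb_gp c q)
  be := c.PBd_se pt_sl (pt_gp c q) (pb_gp c q)
  bl := c.PBd_lam (pb_gp c q)
  bk := c.PBd_kap (pb_gp c q)

theorem GF_nE (p : ℕ × ℕ) : (GF c q).nE p = c.nE (sl p) (gp c q p) := by
  show 2 * c.ℓh (sl p) (gp c q p) / c.μ2 (sl p) (gp c q p) + 1 = _
  rw [← Cst2.ℓ2_eq_two_mul]
  rfl

/-- The further parameter registers. -/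
def extF (i : ℕ) (p : ℕ × ℕ) : ℕ :=
  if i = 97 then c.L (gp c q p) else if i = 98 then c.S (gp c q p)
  else if i = 99 then c.w0 (sl p) (gp c q p)
  else if i = 102 then c.Kc (gp c q p) else if i = 103 then c.Kc (gp c q p)
  else if i = 104 then c.B2 (sl p) (gp c q p) else if i = 105 then pe2 c q p
  else (GF c q).val i p

theorem pt_extF (i : ℕ) : PT ∅ (extF c q i) := by
  have st : ∀ {j : ℕ} {f g : ℕ × ℕ → ℕ}, PT ∅ f → PT ∅ g →
      PT ∅ (fun p => if i = j then f p else g p) := by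
    intro j f g hf hg
    by_cases hij : i = j
    · simpa only [if_pos hij] using hf
    · simpa only [if_neg hij] using hg
  exact st (c.PT_L (pt_gp c q)) (st (c.PT_S (pt_gp c q))
    (st (c.PT_w0 pt_sl (pt_gp c q) (pb_gp c q)) (st (c.PT_Kc (pt_gp c q))
    (st (c.PT_Kc (pt_gp c q)) (st (c.PT_B2 pt_sl (pt_gp c q) (pb_gp c q))
    (st (pt_pe2 c q) (H36.StF.PT_val (GF_pts c q) i)))))))

/-- The list of the further parameter registers. -/
def erF : List ℕ := [80, 81, 82, 83, 84, 85, 86, 87, 88, 89, 90, 91, 92, 93, 94, 95, 96, 97, 98, 99,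
  102, 103, 104, 105]

/-- The registers of the first numbers of the feed: `n, S, μ, ℓ, w0, Kc, kr, B, c0, pe, D, N`. -/
def rsF : List ℕ := [97, 98, 51, 50, 99, 102, 103, 104, 93, 105, 53, 74]

/-- **The parameters of the main program**; the numbers have `cb * size (n + 2)` bits, the band is
everything for `n < N₀`. -/
def mulF (cb N₀ : ℕ) : H486.MulF where
  m p := cb * Nat.size (sl p + 2)
  N p := c.Nu2 (gp c q p)
  e p := c.md (sl p) (gp c q p)
  Q p := c.Q2 (gp c q p)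
  NS p := (GF c q).nSd p
  NV p := c.NV (sl p) (gp c q p)
  kb p := c.kb N₀ (sl p) (gp c q p)
  l p := c.ℓ2 (sl p) (gp c q p)
  mu p := c.μ2 (sl p) (gp c q p)
  mc p := 2 ^ (c.w (gp c q p) + c.z (gp c q p))
  D p := c.D2 (gp c q p)
  ext := extF c q
  er := erF
  rs := rsF
  Pre := H933.preProg
  pt_m := PT.mul (PT.const _) (PT.natSize (PT.add pt_sl (PT.const 2)))
  pt_N := c.PT_Nu2 (pt_gp c q)
  pt_e := c.PT_md pt_sl (pt_gp c q) (pb_gp c q)
  pt_Q := c.PT_Q2 (pt_gp c q) (pb_gp c q)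
  pt_NS := H36.StF.PT_nSd (GF_pts c q)
  pt_NV := c.PT_NV pt_sl (pt_gp c q) (pb_gp c q)
  pt_kb := c.PT_kb N₀ pt_sl (pt_gp c q) (pb_gp c q)
  pt_l := c.PT_ℓ2 pt_sl (pt_gp c q) (pb_gp c q)
  pt_mu := c.PT_μ2 pt_sl (pt_gp c q) (pb_gp c q)
  pt_mc := c.PT_two_pow_wz (pt_gp c q) (pb_gp c q)
  pt_D := c.PT_D2 (pt_gp c q) (pb_gp c q)
  pt_ext := fun i _ => pt_extF c q i
  er_ok := by decide
  rs_ok := by decide
  quiet := H933.startQuiet (by decide)

variable (cb N₀ : ℕ)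

theorem mulF_regs_mem : ∀ i ∈ H36.StF.regs, i ∈ (mulF c q cb N₀).er := by
  show ∀ i ∈ H36.StF.regs, i ∈ erF
  decide

theorem mulF_ext {i : ℕ} (hi : i ∈ H36.StF.regs) (p : ℕ × ℕ) :
    (mulF c q cb N₀).ext i p = (GF c q).val i p := by
  have h : 80 ≤ i ∧ i ≤ 96 := by
    revert hi; revert i; decide
  show extF c q i p = _
  unfold extF
  rw [if_neg (by omega), if_neg (by omega), if_neg (by omega), if_neg (by omega),
    if_neg (by omega), if_neg (by omega), if_neg (by omega)]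

theorem mulF_pfx (p : ℕ × ℕ) : (mulF c q cb N₀).pfx p =
    [c.L (gp c q p), c.S (gp c q p), c.μ2 (sl p) (gp c q p), c.ℓ2 (sl p) (gp c q p),
      c.w0 (sl p) (gp c q p), c.Kc (gp c q p), c.Kc (gp c q p), c.B2 (sl p) (gp c q p),
      c.c0 (sl p) (gp c q p), pe2 c q p, c.D2 (gp c q p), c.Nu2 (gp c q p)] := rfl

theorem mulF_NV (p : ℕ × ℕ) : (mulF c q cb N₀).NV p = H933.nvG (GF c q) p := by
  show c.K (gp c q p) * c.nS (sl p) (gp c q p) * c.nE (sl p) (gp c q p) = _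
  rw [← GF_nE]
  rfl

theorem mulF_e_eq (p : ℕ × ℕ) : ∃ j, (mulF c q cb N₀).e p = 2 ^ j := ⟨_, rfl⟩

theorem GF_ok (p : ℕ × ℕ) : ((GF c q).tb p).Ok ((GF c q).q p) := by
  refine H933.tbOk ?_ ?_
  · exact Cst2.ok_se (c := c) (sl p) (gp c q p)
  · show 2 * c.ℓh (sl p) (gp c q p) < 2 ^ (c.se (sl p) (gp c q p) + 1)
    rw [← Cst2.ℓ2_eq_two_mul]
    exact Cst2.ℓ2_lt_se _ _

end

end Vale.Agent.P315.H873
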