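import Vale.Agent.P315.H873.MulF
import Vale.Agent.P315.H873.MulTime
import Vale.Agent.P315.H36.ParTime

/-!
# The parameters of the multiplicative version fit the main program
-/

set_option autoImplicit false

namespace Vale.Agent.P315.H873

open Vale.Agent.Lib.PolyTime Vale.Agent.P315.H809 Vale.Agent.P315.H527 Vale.Agent.P315.H608
open Vale.Agent.P315.RAM (len2)

/-! ### Polynomial bounds -/

/-- `f` is at most a polynomial in the sum of the lengths. -/
def PB (f : ℕ × ℕ → ℕ) : Prop := ∃ a : ℕ, ∀ p, f p ≤ (sl p + 2) ^ a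

section PB
variable {f f' : ℕ × ℕ → ℕ}

theorem PB.mono (h : PB f) (hle : ∀ p, f' p ≤ f p) : PB f' := by
  obtain ⟨a, h⟩ := h
  exact ⟨a, fun p => (hle p).trans (h p)⟩

theorem PB.const (n : ℕ) : PB (fun _ => n) :=
  ⟨n, fun _ => Nat.lt_two_pow_self.le.trans (Nat.pow_le_pow_left (by omega) _)⟩

theorem PB.len : PB sl := ⟨1, fun p => by rw [pow_one]; omega⟩

theorem PB.fst : PB Prod.fst := PB.len.mono fun p => by unfold sl; omega

theorem PB.snd : PB Prod.snd := PB.len.mono fun p => by unfold sl; omega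

theorem PB.mul (h : PB f) (h' : PB f') : PB (fun p => f p * f' p) := by
  obtain ⟨a, h⟩ := h
  obtain ⟨a', h'⟩ := h'
  refine ⟨a + a', fun p => ?_⟩
  rw [pow_add]
  exact Nat.mul_le_mul (h p) (h' p)

theorem PB.add (h : PB f) (h' : PB f') : PB (fun p => f p + f' p) := by
  obtain ⟨a, h⟩ := h
  obtain ⟨a', h'⟩ := h'
  refine ⟨a + a' + 1, fun p => ?_⟩
  have h1 : (sl p + 2) ^ a ≤ (sl p + 2) ^ (a + a') := Nat.pow_le_pow_right (by omega) (by omega)
  have h2 : (sl p + 2) ^ a' ≤ (sl p + 2) ^ (a + a') := Nat.pow_le_pow_right (by omega) (by omega)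
  have h3 := h p
  have h4 := h' p
  rw [pow_succ]
  have h5 : (sl p + 2) ^ (a + a') * 2 ≤ (sl p + 2) ^ (a + a') * (sl p + 2) :=
    Nat.mul_le_mul_left _ (by omega)
  show f p + f' p ≤ _
  omega

theorem PB.pow (h : PB f) (k : ℕ) : PB (fun p => f p ^ k) := by
  obtain ⟨a, h⟩ := h
  refine ⟨a * k, fun p => ?_⟩
  rw [pow_mul]
  exact Nat.pow_le_pow_left (h p) k

theorem PB.ite (h : PB f) (h' : PB f') (P : ℕ × ℕ → Prop) [DecidablePred P] :
    PB (fun p => if P p then f p else f' p) :=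
  (h.add h').mono fun p => by split_ifs <;> omega

/-- finitely many functions -/
theorem PB.list {ι : Type*} (L : List ι) (F : ι → ℕ × ℕ → ℕ) (h : ∀ i ∈ L, PB (F i)) :
    ∃ a : ℕ, ∀ i ∈ L, ∀ p, F i p ≤ (sl p + 2) ^ a := by
  induction L with
  | nil => exact ⟨0, fun i hi => absurd hi (by simp)⟩
  | cons j L ih =>
    obtain ⟨a, ha⟩ := ih fun i hi => h i (List.mem_cons_of_mem _ hi)
    obtain ⟨b, hb⟩ := h j (by simp)
    refine ⟨max a b, fun i hi p => ?_⟩
    rcases List.mem_cons.mp hi with rfl | hi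
    · exact (hb p).trans (Nat.pow_le_pow_right (by omega) (le_max_right _ _))
    · exact (ha i hi p).trans (Nat.pow_le_pow_right (by omega) (le_max_left _ _))

end PB

section bounds

variable (c : Cst2) {q : ℕ} (hq : 1 ≤ q)

include hq in
theorem PB.ofPK {f : ℕ → ℕ} (h : PK c.toCst f) : PB (fun p => f (gp c q p)) := by
  obtain ⟨a, h⟩ := h.bound
  exact ⟨a, fun p => h q (sl p) hq⟩

include hq

theorem pb2_K : PB (fun p => c.K (gp c q p)) := PB.ofPK c hq PK.K

theorem pb2_L : PB (fun p => c.L (gp c q p)) := PB.ofPK c hq PK.L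

theorem pb2_S : PB (fun p => c.S (gp c q p)) := PB.ofPK c hq PK.S

theorem pb2_ww (a : ℕ) : PB (fun p => 2 ^ (c.w (gp c q p) + a)) :=
  PB.ofPK c hq (PK.two_pow_L c.ak a)

theorem pb2_zz : PB (fun p => 2 ^ c.z (gp c q p)) := PB.ofPK c hq (PK.two_pow_S c.e₀ c.e₁)

theorem pb2_wz (a : ℕ) : PB (fun p => 2 ^ (c.w (gp c q p) + c.z (gp c q p) + a)) :=
  ((pb2_ww c hq a).mul (pb2_zz c hq)).mono fun p => by
    rw [← pow_add]
    exact Nat.pow_le_pow_right (by norm_num) (by omega)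

omit hq in
theorem pb2_mu : PB (fun p => c.μ2 (sl p) (gp c q p)) :=
  (PB.len.add (PB.const 1)).mono fun _ => Nat.add_le_add_right (Nat.div_le_self _ _) _

theorem pb2_w0 : PB (fun p => c.w0 (sl p) (gp c q p)) := (pb2_zz c hq).mul (pb2_mu c)

theorem pb2_l : PB (fun p => c.ℓ2 (sl p) (gp c q p)) := (pb2_wz c hq 0).mul (pb2_mu c)

theorem pb2_lh : PB (fun p => c.ℓh (sl p) (gp c q p)) :=
  (pb2_l c hq).mono fun p => by rw [Cst2.ℓ2_eq_two_mul]; omega

theorem pb2_Kc : PB (fun p => c.Kc (gp c q p)) :=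
  (pb2_ww c hq c.c2).mono fun _ => Nat.lt_two_pow_self.le

theorem pb2_twoKc : PB (fun p => 2 ^ c.Kc (gp c q p)) := pb2_ww c hq c.c2

theorem pb2_c0 : PB (fun p => c.c0 (sl p) (gp c q p)) := (pb2_K c hq).mul (pb2_lh c hq)

theorem pb2_B : PB (fun p => c.B2 (sl p) (gp c q p)) :=
  (PB.const 2).mul ((pb2_twoKc c hq).mul ((pb2_w0 c hq).mul (pb2_K c hq)))

theorem pb2_nS : PB (fun p => c.nS (sl p) (gp c q p)) :=
  ((pb2_B c hq).add (PB.const 1)).mono fun _ => Nat.add_le_add_right (Nat.div_le_self _ _) _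

theorem pb2_nE : PB (fun p => c.nE (sl p) (gp c q p)) :=
  ((pb2_l c hq).add (PB.const 1)).mono fun _ => Nat.add_le_add_right (Nat.div_le_self _ _) _

theorem pb2_D : PB (fun p => c.D2 (gp c q p)) :=
  ((pb2_wz c hq (c.c2 + 4)).mul (pb2_K c hq)).mono fun p => by
    unfold Cst2.D2
    rw [Nat.add_assoc _ c.c2 4]

theorem pb2_Q : PB (fun p => c.Q2 (gp c q p)) := by
  refine (((PB.const (2 * c.C0)).mul ((pb2_K c hq).pow 2)).mul (pb2_wz c hq (c.c2 + 5))).mono
    fun p => ?_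
  unfold Cst2.Q2 Cst2.Kc
  refine Nat.mul_le_mul (Cst.Q_le _) (Nat.pow_le_pow_right (by norm_num) (by omega))

theorem pb2_NV : PB (fun p => c.NV (sl p) (gp c q p)) :=
  ((pb2_K c hq).mul (pb2_nS c hq)).mul (pb2_nE c hq)

theorem pb2_Nu : PB (fun p => c.Nu2 (gp c q p)) :=
  (((pb2_L c hq).add (PB.const 1)).mul (PB.const c.M)).add
    (((pb2_L c hq).add (PB.const 1)).mul (((pb2_S c hq).add (PB.const 1)).mul
      (PB.ofPK c hq (PK.two_pow_S c.ms 0))))

omit hq in
theorem pb2_kb (N₀ : ℕ) : PB (fun p => c.kb N₀ (sl p) (gp c q p)) :=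
  (PB.len.add ((PB.const c.C1).mul (PB.len.add (PB.const 1)))).mono fun p => by
    unfold Cst2.kb
    split_ifs with h
    · omega
    · refine le_trans ?_ (Nat.le_add_left _ _)
      exact Nat.mul_le_mul_left _ (Nat.add_le_add_right (Nat.div_le_self _ _) _)

theorem pb2_md : PB (fun p => c.md (sl p) (gp c q p)) := by
  refine (((PB.ofPK c hq (PK.two_pow_S c.mt (c.kc + 1))).mul (pb2_l c hq))).mono fun p => ?_
  unfold Cst2.md Cst2.lmd
  have h1 := Nat.pow_log_le_self 2 (x := c.ℓ2 (sl p) (gp c q p))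
    (by have := Cst2.ℓ2_pos (c := c) (sl p) (gp c q p); omega)
  calc 2 ^ (c.kc + c.mt * 2 ^ c.S (gp c q p) + Nat.log 2 (c.ℓ2 (sl p) (gp c q p)) + 1)
      = 2 ^ (c.mt * 2 ^ c.S (gp c q p) + (c.kc + 1)) *
        2 ^ Nat.log 2 (c.ℓ2 (sl p) (gp c q p)) := by
        rw [← pow_add]; congr 1; ring
    _ ≤ _ := Nat.mul_le_mul_left _ h1

theorem pb2_se : PB (fun p => 2 ^ c.se (sl p) (gp c q p)) := by
  refine ((pb2_l c hq).add (((pb2_ww c hq 0).pow 10).mul (PB.const (2 ^ 80)))).mono fun p => ?_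
  unfold Cst2.se Cst2.lam
  rcases le_total (Nat.log 2 (c.ℓ2 (sl p) (gp c q p))) (10 * (c.w (gp c q p) + 8)) with h | h
  · rw [max_eq_right h]
    refine le_trans (le_of_eq ?_) (Nat.le_add_left _ _)
    rw [← pow_mul, ← pow_add]
    congr 1
    ring
  · rw [max_eq_left h]
    refine le_trans ?_ (Nat.le_add_right _ _)
    exact Nat.pow_log_le_self 2 (by have := Cst2.ℓ2_pos (c := c) (sl p) (gp c q p); omega)

theorem pb2_pe : PB (pe2 c q) := by
  refine ((PB.fst.add (((pb2_K c hq).mul ((PB.const 2).mul (pb2_lh c hq))))).add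
    (pb2_c0 c hq)).mono fun p => ?_
  unfold pe2
  refine (Nat.div_mul_le_self _ _).trans ((Nat.sub_le _ _).trans ?_)
  refine Nat.add_le_add_right (Nat.add_le_add_left ?_ _) _
  exact (Nat.div_le_self _ _).trans ((Nat.sub_le _ _).trans (Nat.sub_le _ _))

/-- The largest of the small quantities of the table. -/
def ZF (c : Cst2) (q : ℕ) (p : ℕ × ℕ) : ℕ :=
  2 ^ (c.w (gp c q p) + 0) + c.K (gp c q p) + c.nS (sl p) (gp c q p) + c.nE (sl p) (gp c q p)

theorem pb2_Z : PB (ZF c q) :=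
  (((pb2_ww c hq 0).add (pb2_K c hq)).add (pb2_nS c hq)).add (pb2_nE c hq)

omit hq in
theorem small_ZF (p : ℕ × ℕ) : (GF c q).Small p (ZF c q p) where
  ok := (GF_ok c q p).hq
  lam := by
    show 2 ^ c.w (gp c q p) ≤ _
    unfold ZF; rw [Nat.add_zero]
    generalize 2 ^ c.w (gp c q p) = E
    omega
  kap := by
    show 2 ^ c.kap (gp c q p) ≤ _
    rw [← Cst2.K_eq]
    unfold ZF
    generalize 2 ^ (c.w (gp c q p) + 0) = E
    omega
  Kr := by
    show c.K (gp c q p) ≤ _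
    unfold ZF
    generalize 2 ^ (c.w (gp c q p) + 0) = E
    omega
  nS := by
    show c.nS (sl p) (gp c q p) ≤ _
    unfold ZF
    generalize 2 ^ (c.w (gp c q p) + 0) = E
    omega
  nE := by
    rw [GF_nE]
    unfold ZF
    generalize 2 ^ (c.w (gp c q p) + 0) = E
    omega

/-- A bound of all sizes. -/
def XF (c : Cst2) (q : ℕ) (p : ℕ × ℕ) : ℕ :=
  ZF c q p + 2 ^ c.se (sl p) (gp c q p) + c.μ2 (sl p) (gp c q p) + c.ℓh (sl p) (gp c q p) +
    c.c0 (sl p) (gp c q p)

theorem pb2_X : PB (XF c q) :=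
  ((((pb2_Z c hq).add (pb2_se c hq)).add (pb2_mu c)).add (pb2_lh c hq)).add (pb2_c0 c hq)

theorem pb2_val (i : ℕ) : PB (fun p => (GF c q).val i p) := by
  refine ((PB.const (2 ^ 30)).mul ((pb2_X c hq).pow 8)).mono fun p => ?_
  refine (small_ZF c p).val_le (X := XF c q p) ?_ ?_ ?_ ?_ ?_ i
  · unfold XF
    generalize 2 ^ c.se (sl p) (gp c q p) = E
    omega
  · show 2 ^ c.se (sl p) (gp c q p) ≤ _
    unfold XF
    generalize 2 ^ c.se (sl p) (gp c q p) = E
    omega
  · show c.μ2 (sl p) (gp c q p) ≤ _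
    unfold XF
    generalize 2 ^ c.se (sl p) (gp c q p) = E
    omega
  · show c.ℓh (sl p) (gp c q p) ≤ _
    unfold XF
    generalize 2 ^ c.se (sl p) (gp c q p) = E
    omega
  · show c.c0 (sl p) (gp c q p) ≤ _
    unfold XF
    generalize 2 ^ c.se (sl p) (gp c q p) = E
    omega

theorem pb2_nSd : PB (fun p => (GF c q).nSd p) := by
  refine ((PB.const (2 ^ 22)).mul ((pb2_X c hq).pow 4)).mono fun p => ?_
  refine (small_ZF c p).nSd_le (X := XF c q p) ?_ ?_
  · unfold XF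
    generalize 2 ^ c.se (sl p) (gp c q p) = E
    omega
  · show 2 ^ c.se (sl p) (gp c q p) ≤ _
    unfold XF
    generalize 2 ^ c.se (sl p) (gp c q p) = E
    omega

theorem pb2_ext (i : ℕ) : PB (extF c q i) := by
  have st : ∀ {j : ℕ} {f g : ℕ × ℕ → ℕ}, PB f → PB g →
      PB (fun p => if i = j then f p else g p) := by
    intro j f g hf hg
    by_cases hij : i = j
    · simpa only [if_pos hij] using hf
    · simpa only [if_neg hij] using hg
  exact st (pb2_L c hq) (st (pb2_S c hq) (st (pb2_w0 c hq) (st (pb2_Kc c hq) (st (pb2_Kc c hq)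
    (st (pb2_B c hq) (st (pb2_pe c hq) (pb2_val c hq i)))))))

end bounds

/-! ### The number of bits -/

theorem pow_lt_bits {cb : ℕ} (h : 1 ≤ cb) (N : ℕ) : (N + 2) ^ cb < 2 ^ (cb * Nat.size (N + 2)) := by
  rw [Nat.mul_comm, pow_mul]
  exact Nat.pow_lt_pow_left (Nat.lt_size_self _) (by omega)

theorem bits_le_pow (cb N : ℕ) : 2 ^ (cb * Nat.size (N + 2)) ≤ (N + 2) ^ (2 * cb) := by
  have h1 : 2 ^ Nat.size (N + 2) ≤ 2 * (N + 2) := by
    have h2 : Nat.size (N + 2) ≠ 0 := by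
      intro h
      rw [Nat.size_eq_zero] at h
      omega
    obtain ⟨k, hk⟩ := Nat.exists_eq_succ_of_ne_zero h2
    have h3 : 2 ^ k ≤ N + 2 := by
      apply Nat.lt_size.mp
      omega
    rw [hk, pow_succ]
    omega
  calc 2 ^ (cb * Nat.size (N + 2)) = (2 ^ Nat.size (N + 2)) ^ cb := by
        rw [Nat.mul_comm, pow_mul]
    _ ≤ ((N + 2) ^ 2) ^ cb := by
        apply Nat.pow_le_pow_left
        refine h1.trans ?_
        rw [pow_two]
        exact Nat.mul_le_mul_right _ (by omega)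
    _ = _ := by rw [← pow_mul]

theorem bits_le (cb N : ℕ) : cb * Nat.size (N + 2) ≤ cb * (N + 2) :=
  Nat.mul_le_mul_left _ (Nat.size_le.2 Nat.lt_two_pow_self)

theorem add_two_le_sq (a b : ℕ) : a + b + 2 ≤ (max a b + 2) ^ 2 := by
  have h1 : a ≤ max a b := le_max_left _ _
  have h2 : b ≤ max a b := le_max_right _ _
  nlinarith

/-! ### The conditions of the main program -/

/-- All numbers of the feed and the modulus. -/
def feedFn (c : Cst2) (q : ℕ) (N₀ : ℕ) : List (ℕ × ℕ → ℕ) :=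
  [fun p => c.L (gp c q p), fun p => c.S (gp c q p), fun p => c.μ2 (sl p) (gp c q p),
    fun p => c.ℓ2 (sl p) (gp c q p), fun p => c.w0 (sl p) (gp c q p), fun p => c.Kc (gp c q p),
    fun p => c.B2 (sl p) (gp c q p), fun p => c.c0 (sl p) (gp c q p), pe2 c q,
    fun p => c.D2 (gp c q p), fun p => c.Nu2 (gp c q p), fun p => c.md (sl p) (gp c q p),
    fun p => c.NV (sl p) (gp c q p), fun p => (GF c q).nSd p, fun p => c.Q2 (gp c q p),
    fun p => c.kb N₀ (sl p) (gp c q p), fun p => 2 ^ (c.w (gp c q p) + c.z (gp c q p) + 0)]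

theorem pb2_feedFn (c : Cst2) {q : ℕ} (hq : 1 ≤ q) (N₀ : ℕ) :
    ∀ f ∈ feedFn c q N₀, PB f := by
  intro f hf
  unfold feedFn at hf
  simp only [List.mem_cons, List.not_mem_nil, or_false] at hf
  rcases hf with rfl | rfl | rfl | rfl | rfl | rfl | rfl | rfl | rfl | rfl | rfl | rfl | rfl |
    rfl | rfl | rfl | rfl
  · exact pb2_L c hq
  · exact pb2_S c hq
  · exact pb2_mu c
  · exact pb2_l c hq
  · exact pb2_w0 c hq
  · exact pb2_Kc c hq
  · exact pb2_B c hq
  · exact pb2_c0 c hq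
  · exact pb2_pe c hq
  · exact pb2_D c hq
  · exact pb2_Nu c hq
  · exact pb2_md c hq
  · exact pb2_NV c hq
  · exact pb2_nSd c hq
  · exact pb2_Q c hq
  · exact pb2_kb c N₀
  · exact pb2_wz c hq 0

/-- **The parameters fit the main program.** The number of bits is `cb * size (n + 2)` with `cb`
large; then the sizes of the states and the codes of the queries may be any polynomials. -/
theorem mulF_fits (c : Cst2) {q : ℕ} (hq : 1 ≤ q) (N₀ : ℕ) : ∃ cb₀ : ℕ, ∀ cb, cb₀ ≤ cb →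
    ∀ bS bV : ℕ, ∃ c1₀ : ℕ, ∀ c1, c1₀ ≤ c1 → ∀ (x y : List ℕ) (S Vb : ℕ),
      S ≤ (x.length + y.length + 2) ^ bS → Vb ≤ (x.length + y.length + 2) ^ bV →
      (mulF c q cb N₀).Fits x y S Vb ((max x.length y.length + 2) ^ c1) 130
        (H933.tpre (GF c q) (len2 x y)) (H933.visG (GF c q) x y) := by
  obtain ⟨a, ha⟩ := PB.list (feedFn c q N₀) (fun f => f) (pb2_feedFn c hq N₀)
  obtain ⟨b, hb⟩ := PB.list (List.range 200) (extF c q) (fun i _ => pb2_ext c hq i)
  refine ⟨a + 1, fun cb hcb bS bV => ⟨2 * (a + b + bS + bV + 2 * cb + 20), fun c1 hc1 x y S Vb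
    hS hV => ?_⟩⟩
  set p := len2 x y with hp
  set N := x.length + y.length with hN
  have hslp : sl p = N := rfl
  have hf : ∀ f ∈ feedFn c q N₀, f p ≤ (N + 2) ^ a := fun f h => ha f h p
  have hbits : (N + 2) ^ cb < 2 ^ (cb * Nat.size (N + 2)) := pow_lt_bits (by omega) N
  have hlt : ∀ f ∈ feedFn c q N₀, f p < 2 ^ (cb * Nat.size (N + 2)) := fun f h =>
    (hf f h).trans_lt ((Nat.pow_le_pow_right (by omega) (by omega)).trans_lt hbits)
  -- everything is bounded by `R`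
  set T := a + b + bS + bV + 2 * cb + 19 with hT
  have hR : (N + 2) ^ (T + 1) ≤ (max x.length y.length + 2) ^ c1 := by
    calc (N + 2) ^ (T + 1) ≤ ((max x.length y.length + 2) ^ 2) ^ (T + 1) :=
          Nat.pow_le_pow_left (add_two_le_sq _ _) _
      _ = (max x.length y.length + 2) ^ (2 * (T + 1)) := by rw [← pow_mul]
      _ ≤ _ := Nat.pow_le_pow_right (by omega) (by omega)
  have hpow : ∀ {t : ℕ}, t ≤ T → (N + 2) ^ t ≤ (N + 2) ^ T := fun ht =>
    Nat.pow_le_pow_right (by omega) ht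
  have hle : ∀ {t v : ℕ}, v ≤ (N + 2) ^ t → t ≤ T →
      v ≤ (max x.length y.length + 2) ^ c1 := fun hv ht =>
    (hv.trans (hpow (by omega))).trans ((Nat.pow_le_pow_right (by omega) (by omega)).trans hR)
  have hone : 1 ≤ (N + 2) ^ T := Nat.one_le_pow _ _ (by omega)
  have hmb : 2 ^ (cb * Nat.size (N + 2)) ≤ (N + 2) ^ (2 * cb) := bits_le_pow cb N
  have hm1 : cb * Nat.size (N + 2) < 2 ^ (cb * Nat.size (N + 2)) := Nat.lt_two_pow_self
  have hL : c.L (gp c q p) ≤ (N + 2) ^ a := hf (fun p => c.L (gp c q p)) (by simp [feedFn])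
  have e8 : (4 : ℕ) ≤ (N + 2) ^ 2 := by nlinarith
  have hsmall : ∀ {u v : ℕ}, u ≤ 1000 → v ≤ (N + 2) ^ (T - 10) → u * v ≤ (N + 2) ^ T := by
    intro u v hu hv
    calc u * v ≤ 1024 * (N + 2) ^ (T - 10) := Nat.mul_le_mul (by omega) hv
      _ = 2 ^ 10 * (N + 2) ^ (T - 10) := by norm_num
      _ ≤ (N + 2) ^ 10 * (N + 2) ^ (T - 10) :=
          Nat.mul_le_mul_right _ (Nat.pow_le_pow_left (by omega) _)
      _ = (N + 2) ^ T := by rw [← pow_add]; congr 1; omega
  have hRT : (N + 2) ^ T ≤ (max x.length y.length + 2) ^ c1 :=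
    (Nat.pow_le_pow_right (by omega) (by omega)).trans hR
  have hNF : (mulF c q cb N₀).NF p ≤ 14 * (N + 2) ^ a := by
    show 12 + c.Nu2 (gp c q p) + c.NV (sl p) (gp c q p) ≤ _
    have h1 := hf (fun p => c.Nu2 (gp c q p)) (by simp [feedFn])
    have h2 := hf (fun p => c.NV (sl p) (gp c q p)) (by simp [feedFn])
    have h3 : 1 ≤ (N + 2) ^ a := Nat.one_le_pow _ _ (by omega)
    omega
  constructor
  · show x.length < 2 ^ (cb * Nat.size (N + 2))
    refine lt_of_le_of_lt ?_ hbits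
    calc x.length ≤ (N + 2) ^ 1 := by rw [pow_one]; omega
      _ ≤ _ := Nat.pow_le_pow_right (by omega) (by omega)
  · show y.length < 2 ^ (cb * Nat.size (N + 2))
    refine lt_of_le_of_lt ?_ hbits
    calc y.length ≤ (N + 2) ^ 1 := by rw [pow_one]; omega
      _ ≤ _ := Nat.pow_le_pow_right (by omega) (by omega)
  · exact hlt (fun p => c.ℓ2 (sl p) (gp c q p)) (by simp [feedFn])
  · intro v hv
    rw [← hp, mulF_pfx] at hv
    simp only [List.mem_cons, List.not_mem_nil, or_false] at hv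
    show v < 2 ^ (cb * Nat.size (N + 2))
    rcases hv with rfl | rfl | rfl | rfl | rfl | rfl | rfl | rfl | rfl | rfl | rfl | rfl
    · exact hlt (fun p => c.L (gp c q p)) (by simp [feedFn])
    · exact hlt (fun p => c.S (gp c q p)) (by simp [feedFn])
    · exact hlt (fun p => c.μ2 (sl p) (gp c q p)) (by simp [feedFn])
    · exact hlt (fun p => c.ℓ2 (sl p) (gp c q p)) (by simp [feedFn])
    · exact hlt (fun p => c.w0 (sl p) (gp c q p)) (by simp [feedFn])
    · exact hlt (fun p => c.Kc (gp c q p)) (by simp [feedFn])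
    · exact hlt (fun p => c.Kc (gp c q p)) (by simp [feedFn])
    · exact hlt (fun p => c.B2 (sl p) (gp c q p)) (by simp [feedFn])
    · exact hlt (fun p => c.c0 (sl p) (gp c q p)) (by simp [feedFn])
    · exact hlt (pe2 c q) (by simp [feedFn])
    · exact hlt (fun p => c.D2 (gp c q p)) (by simp [feedFn])
    · exact hlt (fun p => c.Nu2 (gp c q p)) (by simp [feedFn])
  · exact Cst2.md_pos _ _
  · exact (hlt (fun p => c.md (sl p) (gp c q p)) (by simp [feedFn])).le
  · exact le_rfl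
  · have h := hsmall (u := 60) (v := (N + 2) ^ 1) (by norm_num)
      (Nat.pow_le_pow_right (by omega) (by omega))
    rw [pow_one] at h
    refine le_trans ?_ (h.trans hRT)
    omega
  · exact hmb.trans ((hpow (by omega)).trans hRT)
  · show 4 * (cb * Nat.size (N + 2)) + 10 ≤ _
    have h := hsmall (u := 14) (v := (N + 2) ^ (2 * cb)) (by norm_num)
      (Nat.pow_le_pow_right (by omega) (by omega))
    have h1 : 1 ≤ (N + 2) ^ (2 * cb) := Nat.one_le_pow _ _ (by omega)
    refine le_trans ?_ (h.trans hRT)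
    omega
  · show (mulF c q cb N₀).NF p * (2 * (cb * Nat.size (N + 2)) + 1) + S +
      2 * (cb * Nat.size (N + 2)) + 10 ≤ _
    have h1 : 1 ≤ (N + 2) ^ (2 * cb) := Nat.one_le_pow _ _ (by omega)
    have h2 : 2 * (cb * Nat.size (N + 2)) + 1 ≤ 3 * (N + 2) ^ (2 * cb) := by omega
    have h3 : (mulF c q cb N₀).NF p * (2 * (cb * Nat.size (N + 2)) + 1) ≤
        42 * (N + 2) ^ (a + 2 * cb) := by
      calc _ ≤ (14 * (N + 2) ^ a) * (3 * (N + 2) ^ (2 * cb)) := Nat.mul_le_mul hNF h2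
        _ = _ := by rw [pow_add]; ring
    have h4 : (N + 2) ^ (a + 2 * cb) ≤ (N + 2) ^ (a + bS + 2 * cb) :=
      Nat.pow_le_pow_right (by omega) (by omega)
    have h5 : (N + 2) ^ bS ≤ (N + 2) ^ (a + bS + 2 * cb) :=
      Nat.pow_le_pow_right (by omega) (by omega)
    have h6 : (N + 2) ^ (2 * cb) ≤ (N + 2) ^ (a + bS + 2 * cb) :=
      Nat.pow_le_pow_right (by omega) (by omega)
    have h := hsmall (u := 100) (v := (N + 2) ^ (a + bS + 2 * cb)) (by norm_num)
      (Nat.pow_le_pow_right (by omega) (by omega))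
    refine le_trans ?_ (h.trans hRT)
    omega
  · exact hle (hf (fun p => (GF c q).nSd p) (by simp [feedFn])) (by omega)
  · exact hle (hf (fun p => c.Q2 (gp c q p)) (by simp [feedFn])) (by omega)
  · have h1 := hf (fun p => c.kb N₀ (sl p) (gp c q p)) (by simp [feedFn])
    have h := hsmall (u := 2) (v := (N + 2) ^ a) (by norm_num)
      (Nat.pow_le_pow_right (by omega) (by omega))
    have h2 : 1 ≤ (N + 2) ^ a := Nat.one_le_pow _ _ (by omega)
    refine le_trans ?_ (h.trans hRT)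
    show c.kb N₀ (sl p) (gp c q p) + 1 ≤ _
    omega
  · have h1 := hf (fun p => c.ℓ2 (sl p) (gp c q p)) (by simp [feedFn])
    have h2 := hf (fun p => c.μ2 (sl p) (gp c q p)) (by simp [feedFn])
    have h3 : 1 ≤ (N + 2) ^ a := Nat.one_le_pow _ _ (by omega)
    have h4 : 1 ≤ (N + 2) ^ bV := Nat.one_le_pow _ _ (by omega)
    show (Vb + 1) * (c.ℓ2 (sl p) (gp c q p) + c.μ2 (sl p) (gp c q p) + 1) ≤ _
    have h := hsmall (u := 6) (v := (N + 2) ^ (a + bV)) (by norm_num)
      (Nat.pow_le_pow_right (by omega) (by omega))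
    refine le_trans ?_ (h.trans hRT)
    calc (Vb + 1) * (c.ℓ2 (sl p) (gp c q p) + c.μ2 (sl p) (gp c q p) + 1)
        ≤ (2 * (N + 2) ^ bV) * (3 * (N + 2) ^ a) := Nat.mul_le_mul (by omega) (by omega)
      _ = _ := by rw [pow_add]; ring
  · have h1 := hf (fun p => 2 ^ (c.w (gp c q p) + c.z (gp c q p) + 0)) (by simp [feedFn])
    simp only [Nat.add_zero] at h1
    have h := hsmall (u := 2) (v := (N + 2) ^ a) (by norm_num)
      (Nat.pow_le_pow_right (by omega) (by omega))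
    have h2 : 1 ≤ (N + 2) ^ a := Nat.one_le_pow _ _ (by omega)
    refine le_trans ?_ (h.trans hRT)
    show 2 ^ (c.w (gp c q p) + c.z (gp c q p)) + 1 ≤ _
    generalize 2 ^ (c.w (gp c q p) + c.z (gp c q p)) = E at h1 ⊢
    omega
  · exact hle (hf (fun p => c.D2 (gp c q p)) (by simp [feedFn])) (by omega)
  · intro i hi
    have h200 : i < 200 := by
      revert hi
      show i ∈ erF → i < 200
      revert i
      decide
    exact hle (hb i (List.mem_range.mpr h200) p) (by omega)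
  · intro sd
    rw [H933.length_visG, mulF_NV]
  · intro sd v hv
    have h1 := H933.mem_visG_le hv
    refine lt_of_le_of_lt h1 ?_
    show 2 * c.ℓh (sl p) (gp c q p) < 2 ^ (cb * Nat.size (N + 2))
    rw [← Cst2.ℓ2_eq_two_mul]
    exact hlt (fun p => c.ℓ2 (sl p) (gp c q p)) (by simp [feedFn])
  · intro E _ hE sd σ _ hbase hsd
    exact H933.startFit rfl (mulF_regs_mem c q cb N₀) (fun i hi => mulF_ext c q cb N₀ hi _)
      (GF_ok c q _) le_rfl (mulF_NV c q cb N₀ _) E hE sd σ hbase hsd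

end Vale.Agent.P315.H873
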