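import Vale.Agent.P315.H873.Feed
import Vale.Agent.P315.H992.Band
import Vale.Agent.P315.H731.Tape
import Vale.Agent.P315.Top.Stmt

/-!
# From specifications to `Solves`

* `solves_of_spec`: a program with a specification in every environment solves the problem, if two
  thirds of the tapes are good.
* `feed_two_thirds`: the seeds in the feed are independent and uniform.
* `seeds_two_thirds`: Markov's inequality for a function of independent coins which are residues of
  the seeds in the feed.
* `small_spec`: exact computation for short strings; `split_spec`: case distinction.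
* `solves_split`: everything together.
-/

set_option autoImplicit false

open Finset

namespace Vale.Agent.P315.H873

open Vale.Agent.P315 Vale.Agent.P315.H731 Vale.Agent.P315.H992

/-! ### Environments -/

/-- The environment for words of `b` bits. -/
def mkEnv (n c0 S b : ℕ) (ρ : ℕ → ℕ) (hc0 : 1 ≤ c0) (hS : 100 ≤ S)
    (hb : (n + 2) ^ (c0 * S + 1) ≤ 2 ^ b) (hρ : ∀ i, ρ i < 2 ^ b) : Env where
  ρ := ρ
  R := (n + 2) ^ c0
  S := S
  N := 2 ^ b
  hR := by
    calc 2 ≤ n + 2 := by omega
      _ = (n + 2) ^ 1 := (pow_one _).symm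
      _ ≤ (n + 2) ^ c0 := Nat.pow_le_pow_right (by omega) hc0
  hS := hS
  hN := by
    rw [← pow_mul]
    exact lt_of_lt_of_le (Nat.pow_lt_pow_right (by omega) (by omega)) hb
  hρ := hρ

theorem bdd_init {E : Env} {x y : List ℕ} (hx : x.length ≤ E.R) (hy : y.length ≤ E.R)
    (h : ∀ a ∈ x ++ y, a < E.N) : Bdd E (State.init x y) := by
  have hR := E.hR
  have hRN := E.R_lt_N
  refine ⟨fun i => ?_, fun j hj i => ?_, fun i => ?_, fun i => ?_⟩
  · simp only [State.init]
    split_ifs <;> omega
  · simp only [State.init]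
    rw [if_neg (by omega), if_neg (by omega)]
    omega
  · simp only [State.init, if_true]
    rw [List.getD_eq_getElem?_getD]
    rcases lt_or_ge i x.length with hi | hi
    · rw [List.getElem?_eq_getElem hi, Option.getD_some]
      exact h _ (List.mem_append_left _ (List.getElem_mem hi))
    · rw [List.getElem?_eq_none hi, Option.getD_none]
      omega
  · show y.getD i 0 < E.N
    rw [List.getD_eq_getElem?_getD]
    rcases lt_or_ge i y.length with hi | hi
    · rw [List.getElem?_eq_getElem hi, Option.getD_some]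
      exact h _ (List.mem_append_right _ (List.getElem_mem hi))
    · rw [List.getElem?_eq_none hi, Option.getD_none]
      omega

/-- A program with a specification solves the problem, if two thirds of the tapes are good. -/
theorem solves_of_spec {P : Prog} {good : List ℕ → List ℕ → ℕ → Prop} {t : ℕ → ℝ} {c0 S : ℕ}
    (hc0 : 1 ≤ c0) (hS : 100 ≤ S) (T Nc : List ℕ → List ℕ → ℕ)
    (Out : List ℕ → List ℕ → (ℕ → ℕ) → ℕ)
    (hspec : ∀ (x y : List ℕ) (E : Env), E.R = (max x.length y.length + 2) ^ c0 → E.S = S →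
      Spec E (State.init x y) P (T x y)
        (fun s' => s'.coins = Nc x y ∧ s'.reg 2 = Out x y E.ρ))
    (ht : ∀ x y : List ℕ, (T x y : ℝ) ≤ t (max x.length y.length))
    (hgood : ∀ (x y : List ℕ) (b T' : ℕ), (max x.length y.length + 2) ^ (c0 * S + 1) ≤ 2 ^ b →
      Nc x y ≤ T' → 2 * Nat.card (Fin T' → Fin (2 ^ b)) ≤
        3 * Nat.card {ρ : Fin T' → Fin (2 ^ b) // good x y (Out x y (tape ρ))}) :
    Top.Solves P good t (c0 * S + 1) := by
  apply Top.solves_of_run
  intro x y n b hn hb hsym
  subst hn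
  have hN : 0 < 2 ^ b := Nat.pow_pos (by norm_num)
  have hmain : ∀ ρ : ℕ → ℕ, (∀ i, ρ i < 2 ^ b) →
      ((P.run ρ (State.init x y)).coins = Nc x y ∧ P.output ρ x y = Out x y ρ) ∧
      P.time ρ (State.init x y) ≤ T x y ∧ P.top ρ (State.init x y) < 2 ^ b := by
    intro ρ hρ
    have hle : ∀ m : ℕ, m ≤ max x.length y.length →
        m ≤ (max x.length y.length + 2) ^ c0 := by
      intro m hm
      calc m ≤ max x.length y.length + 2 := by omega
        _ = (max x.length y.length + 2) ^ 1 := (pow_one _).symm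
        _ ≤ _ := Nat.pow_le_pow_right (by omega) hc0
    have hbd : Bdd (mkEnv (max x.length y.length) c0 S b ρ hc0 hS hb hρ) (State.init x y) :=
      bdd_init (hle _ (le_max_left _ _)) (hle _ (le_max_right _ _)) hsym
    obtain ⟨h1, -, h3, h4⟩ := hspec x y (mkEnv (max x.length y.length) c0 S b ρ hc0 hS hb hρ)
      rfl rfl hbd
    exact ⟨h1, h3, h4⟩
  refine ⟨fun ρ hρ => ⟨(hmain ρ hρ).2.2, ?_⟩, fun T' hT' => ?_⟩
  · exact (Nat.cast_le.mpr (hmain ρ hρ).2.1).trans (ht x y)
  · have h0 := hT' (fun _ => 0) (fun _ => hN)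
    rw [(hmain (fun _ => 0) (fun _ => hN)).1.1] at h0
    refine (hgood x y b T' hb h0).trans (le_of_eq ?_)
    have htape : ∀ (ρ : Fin T' → Fin (2 ^ b)) (i : ℕ), tape ρ i < 2 ^ b := by
      intro ρ i
      unfold tape
      split_ifs with h
      · exact (ρ ⟨i, h⟩).isLt
      · exact hN
    congr 1
    refine congrArg Nat.card ?_
    congr 1
    funext ρ
    rw [(hmain (tape ρ) (htape ρ)).1.2]

/-! ### The seeds in the feed -/

/-- The feed with the seeds `c`. -/
def feedL {N e : ℕ} (c : Fin N → Fin e) (lx ly : ℕ) : List ℕ :=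
  lx :: ly :: List.ofFn fun i => (c i : ℕ)

theorem feed_eq {e N lx ly : ℕ} (he : 0 < e) (ρ : ℕ → ℕ) :
    feed ρ 0 e N lx ly = feedL (coinsOf (fun i : Fin N => (i : ℕ)) (fun _ => e)
      (fun _ => he) ρ) lx ly := by
  unfold feed feedL
  congr 2
  apply List.ext_getElem
  · simp
  · intro i h1 h2
    simp [coinsOf]

/-- The seeds in the feed are independent and uniform. -/
theorem feed_two_thirds {b T e N lx ly : ℕ} (hN : N ≤ T) (he : e ∣ 2 ^ b) (P : List ℕ → Prop)
    (h : 2 * Nat.card (Fin N → Fin e) ≤ 3 * Nat.card {c : Fin N → Fin e // P (feedL c lx ly)}) :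
    2 * Nat.card (Fin T → Fin (2 ^ b)) ≤
      3 * Nat.card {ρ : Fin T → Fin (2 ^ b) // P (feed (tape ρ) 0 e N lx ly)} := by
  classical
  have hb : 0 < 2 ^ b := Nat.pow_pos (by norm_num)
  have he0 : 0 < e := Nat.pos_of_dvd_of_pos he hb
  have h1 := tape_card (ι := Fin N) (N := 2 ^ b) (T := T) (fun i => (i : ℕ))
    (fun i j hij => Fin.ext hij) (fun i => lt_of_lt_of_le i.isLt hN) (fun _ => e)
    (fun _ => he0) (fun _ => he) hb (fun c => P (feedL c lx ly))
  have h2 : ∀ ρ : Fin T → Fin (2 ^ b), P (feed (tape ρ) 0 e N lx ly) ↔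
      P (feedL (coinsOf (fun i : Fin N => (i : ℕ)) (fun _ => e) (fun _ => he0) (tape ρ)) lx ly) :=
    fun ρ => by rw [feed_eq he0]
  have h3 : Nat.card {ρ : Fin T → Fin (2 ^ b) // P (feed (tape ρ) 0 e N lx ly)} =
      (univ.filter (fun ρ : Fin T → Fin (2 ^ b) => P (feedL (coinsOf (fun i : Fin N => (i : ℕ))
        (fun _ => e) (fun _ => he0) (tape ρ)) lx ly))).card := by
    rw [Nat.card_eq_fintype_card, Fintype.card_subtype]
    congr 1
    ext ρ
    simp only [mem_filter, mem_univ, true_and]
    exact h2 ρ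
  have h4 : Nat.card {c : Fin N → Fin e // P (feedL c lx ly)} =
      (univ.filter (fun c : Fin N → Fin e => P (feedL c lx ly))).card := by
    rw [Nat.card_eq_fintype_card, Fintype.card_subtype]
  rw [h3]
  rw [h4] at h
  simp only [Nat.card_eq_fintype_card, Fintype.card_pi, Fintype.card_fin, prod_const, card_univ]
    at h h1 ⊢
  have h5 : 0 < e ^ N := Nat.pow_pos he0
  refine Nat.le_of_mul_le_mul_right ?_ h5
  calc 2 * (2 ^ b) ^ T * e ^ N = (2 * e ^ N) * (2 ^ b) ^ T := by ring
    _ ≤ (3 * (univ.filter (fun c : Fin N → Fin e => P (feedL c lx ly))).card) * (2 ^ b) ^ T :=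
        Nat.mul_le_mul_right _ h
    _ = 3 * ((univ.filter (fun c : Fin N → Fin e => P (feedL c lx ly))).card * (2 ^ b) ^ T) := by
        ring
    _ = _ := by
        rw [← h1]
        ring

/-- Independent coins which are residues of the seeds: a nonnegative function of the coins of
average at most `a / 3` is at most `a` for two thirds of the seeds. -/
theorem seeds_two_thirds {ι : Type*} [Fintype ι] [DecidableEq ι] {N e lx ly : ℕ} (he0 : 0 < e)
    (pos : ι → Fin N) (hinj : Function.Injective pos) (m : ι → ℕ) (hm : ∀ i, 0 < m i)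
    (hd : ∀ i, m i ∣ e) (X : (∀ i, Fin (m i)) → ℝ) (hX : ∀ c, 0 ≤ X c) {a : ℝ} (ha : 0 < a)
    (h : 3 * av X ≤ a) (P : List ℕ → Prop)
    (hP : ∀ c : Fin N → Fin e,
      X (fun i => ⟨(c (pos i) : ℕ) % m i, Nat.mod_lt _ (hm i)⟩) ≤ a → P (feedL c lx ly)) :
    2 * Nat.card (Fin N → Fin e) ≤ 3 * Nat.card {c : Fin N → Fin e // P (feedL c lx ly)} := by
  classical
  have : Nonempty (Fin e) := ⟨⟨0, he0⟩⟩
  apply two_thirds_of_av (fun c : Fin N → Fin e => X (fun i =>
    ⟨(c (pos i) : ℕ) % m i, Nat.mod_lt _ (hm i)⟩)) (fun c => hX _) ha _ _ hP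
  refine le_trans (le_of_eq ?_) h
  congr 1
  have h1 := av_restrict (X := Fin e) pos hinj (fun w : ι → Fin e => X (fun i =>
    (⟨(w i : ℕ) % m i, Nat.mod_lt _ (hm i)⟩ : Fin (m i))))
  rw [h1]
  exact av_map_pi (A := fun _ => Fin e) (fun i (a : Fin e) => (⟨(a : ℕ) % m i,
    Nat.mod_lt _ (hm i)⟩ : Fin (m i))) (fun i => e / m i)
    (fun i b => card_fibre_mod (hm i) (hd i) b) X

/-! ### Short strings -/

/-- Exact computation for strings shorter than `n0`. -/
def small (n0 : ℕ) : Prog := .seq (.set 14 (.lit (2 * n0))) (band 2)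

theorem small_norand (n0 : ℕ) : (small n0).norand = true := rfl

theorem small_spec {E : Env} {x y : List ℕ} {n0 : ℕ} (hx : x.length ≤ n0)
    (hy : y.length ≤ n0) (hR : 2 * n0 + 1 ≤ E.R) :
    Spec E (State.init x y) (small n0) (360 * ((n0 + 1) * (2 * n0 + 1)) + 2)
      (fun s' => s'.coins = 0 ∧ s'.reg 2 = ED x y) := by
  have hED : ED x y ≤ 2 * n0 := by
    have := lev_le_length x y
    rw [ED_eq_lev]
    omega
  refine (Spec.withCoins (s := State.init x y) (p := small n0)
    (Q := fun s' => s'.reg 2 = ED x y) ?_ (small_norand n0)).mono le_rfl ?_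
  · unfold small
    refine (Spec.set_seq' (a := 2) (d := 360 * ((n0 + 1) * (2 * n0 + 1))) (2 * n0) ?_ ?_
      (by simp [Expr.cost]) rfl (fun _ => by omega) ?_).le (by omega)
    · show 2 * n0 ≤ E.R
      omega
    · have := E.hS
      simp only [Expr.cost]; omega
    · refine (band_spec' (x := x) (y := y) (k := 2 * n0) (n := n0) ?_ ?_ ?_ ?_ ?_ (by omega)
        (by omega) hx hy).mono ?_ ?_
      · simp [State.init]
      · simp [State.init]
      · simp [State.init]
      · simp [State.init]
      · simp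
      · simp only [Expr.cost]; omega
      · intro s' h
        rw [h]
        omega
  · rintro s' ⟨h1, h2⟩
    exact ⟨h1, h2⟩

/-- Case distinction: are both strings shorter than `n0`? -/
def split (n0 : ℕ) (P Q : Prog) : Prog := .ite (elt (emax (.reg 0) (.reg 1)) (.lit n0)) P Q

theorem split_spec {E : Env} {x y : List ℕ} {n0 : ℕ} {P Q : Prog} {d : ℕ}
    {R : State → Prop} (hR : n0 ≤ E.R)
    (h1 : max x.length y.length < n0 → Spec E (State.init x y) P d R)
    (h2 : n0 ≤ max x.length y.length → Spec E (State.init x y) Q d R) :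
    Spec E (State.init x y) (split n0 P Q) (8 + d) R := by
  have hS := E.hS
  have hev : (elt (emax (.reg 0) (.reg 1)) (.lit n0)).eval (State.init x y) =
      if max x.length y.length < n0 then 1 else 0 := by
    simp [State.init]
  refine Spec.ite' ⟨⟨trivial, trivial, trivial⟩, hR⟩ (by simp only [elt, emax, Expr.cost]; omega)
    (by simp [elt, emax, Expr.cost]) ?_ ?_
  · intro h
    rw [hev] at h
    refine (h2 ?_).le (by omega)
    by_contra hc
    rw [if_pos (by omega)] at h
    omega
  · intro h
    rw [hev] at h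
    refine (h1 ?_).le (by omega)
    by_contra hc
    rw [if_neg hc] at h
    omega

/-! ### Everything together -/

/-- A program for long strings with a specification whose output is a function of the feed; for
short strings the edit distance is computed exactly. -/
theorem solves_split {Big : Prog} {good : List ℕ → List ℕ → ℕ → Prop} {t : ℕ → ℝ}
    {n0 c0 S : ℕ} (hn0 : 1 ≤ n0) (hc0 : 2 * n0 + 1 ≤ 2 ^ c0) (hS : 100 ≤ S)
    (T N e : List ℕ → List ℕ → ℕ) (Out : List ℕ → List ℕ → List ℕ → ℕ)
    (hspec : ∀ (x y : List ℕ) (E : Env), n0 ≤ max x.length y.length →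
      E.R = (max x.length y.length + 2) ^ c0 → E.S = S →
      Spec E (State.init x y) Big (T x y) (fun s' => s'.coins = N x y ∧
        s'.reg 2 = Out x y (feed E.ρ 0 (e x y) (N x y) x.length y.length)))
    (ht : ∀ x y : List ℕ, n0 ≤ max x.length y.length →
      ((T x y + 8 : ℕ) : ℝ) ≤ t (max x.length y.length))
    (ht0 : ∀ n : ℕ, n < n0 → ((360 * ((n0 + 1) * (2 * n0 + 1)) + 10 : ℕ) : ℝ) ≤ t n)
    (he : ∀ x y : List ℕ, n0 ≤ max x.length y.length → ∃ j, e x y = 2 ^ j ∧
      2 ^ j ≤ (max x.length y.length + 2) ^ (c0 * S + 1))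
    (hgood0 : ∀ x y : List ℕ, good x y (ED x y))
    (hgood : ∀ x y : List ℕ, n0 ≤ max x.length y.length →
      2 * Nat.card (Fin (N x y) → Fin (e x y)) ≤ 3 * Nat.card {c : Fin (N x y) → Fin (e x y) //
        good x y (Out x y (feedL c x.length y.length))}) :
    Top.Solves (split n0 (small n0) Big) good t (c0 * S + 1) := by
  classical
  have hc0' : 1 ≤ c0 := by
    by_contra h
    obtain rfl : c0 = 0 := by omega
    simp at hc0
    omega
  refine solves_of_spec hc0' hS
    (fun x y => if max x.length y.length < n0 then 360 * ((n0 + 1) * (2 * n0 + 1)) + 10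
      else T x y + 8)
    (fun x y => if max x.length y.length < n0 then 0 else N x y)
    (fun x y ρ => if max x.length y.length < n0 then ED x y
      else Out x y (feed ρ 0 (e x y) (N x y) x.length y.length)) ?_ ?_ ?_
  · intro x y E hR hES
    have hR0 : 2 * n0 + 1 ≤ E.R := by
      rw [hR]
      exact hc0.trans (Nat.pow_le_pow_left (by omega) c0)
    by_cases hlt : max x.length y.length < n0
    · simp only [if_pos hlt]
      refine (split_spec (d := 360 * ((n0 + 1) * (2 * n0 + 1)) + 2) (by omega) (fun _ => ?_)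
        (fun h => absurd hlt (by omega))).le (by omega)
      exact small_spec (by omega) (by omega) hR0
    · simp only [if_neg hlt]
      refine (split_spec (d := T x y) (by omega) (fun h => absurd h hlt)
        (fun h => hspec x y E h hR hES)).le (by omega)
  · intro x y
    by_cases hlt : max x.length y.length < n0
    · simp only [if_pos hlt]
      exact ht0 _ hlt
    · simp only [if_neg hlt]
      exact ht x y (by omega)
  · intro x y b T' hb hT'
    by_cases hlt : max x.length y.length < n0
    · simp only [if_pos hlt]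
      have : Nat.card {ρ : Fin T' → Fin (2 ^ b) // good x y (ED x y)} =
          Nat.card (Fin T' → Fin (2 ^ b)) := by
        refine Nat.card_congr (Equiv.subtypeUnivEquiv fun _ => hgood0 x y)
      rw [this]
      omega
    · simp only [if_neg hlt] at hT' ⊢
      obtain ⟨j, hj1, hj2⟩ := he x y (by omega)
      refine feed_two_thirds hT' ?_ (fun l => good x y (Out x y l)) (hgood x y (by omega))
      rw [hj1]
      exact pow_dvd_pow 2 ((Nat.pow_le_pow_iff_right (by norm_num)).mp (hj2.trans hb))

end Vale.Agent.P315.H873
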