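import Vale.Agent.P315.H873.Feed2
import Vale.Agent.P315.H873.Glue

/-!
# From specifications to `Solves`, for a feed with a general prefix

The feed is `pre x y ++ seeds`.
-/

set_option autoImplicit false

open Finset

namespace Vale.Agent.P315.H873

open Vale.Agent.P315 Vale.Agent.P315.H731 Vale.Agent.P315.H992

/-- The feed with the prefix `pre` and the seeds `c`. -/
def feedP {N e : ℕ} (pre : List ℕ) (c : Fin N → Fin e) : List ℕ :=
  pre ++ List.ofFn fun i => (c i : ℕ)

theorem feedP_eq_feedL {N e : ℕ} (lx ly : ℕ) (c : Fin N → Fin e) :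
    feedP [lx, ly] c = feedL c lx ly := rfl

theorem feedG_eq_feed (ρ : ℕ → ℕ) (k e N lx ly : ℕ) :
    feedG ρ k e N [lx, ly] = feed ρ k e N lx ly := rfl

theorem feedG_eq {e N : ℕ} (he : 0 < e) (ρ : ℕ → ℕ) (pre : List ℕ) :
    feedG ρ 0 e N pre = feedP pre (coinsOf (fun i : Fin N => (i : ℕ)) (fun _ => e)
      (fun _ => he) ρ) := by
  unfold feedG feedP
  congr 1
  apply List.ext_getElem
  · simp
  · intro i h1 h2
    simp [coinsOf]

theorem feedP_inj {N e : ℕ} (pre : List ℕ) :
    Function.Injective (feedP pre : (Fin N → Fin e) → List ℕ) := by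
  intro c c' h
  unfold feedP at h
  have h1 := List.append_cancel_left h
  have h2 := List.ofFn_injective h1
  funext i
  exact Fin.ext (congrFun h2 i)

/-- The seeds in the feed are independent and uniform. -/
theorem feedG_two_thirds {b T e N : ℕ} (pre : List ℕ) (hN : N ≤ T) (he : e ∣ 2 ^ b)
    (P : List ℕ → Prop)
    (h : 2 * Nat.card (Fin N → Fin e) ≤ 3 * Nat.card {c : Fin N → Fin e // P (feedP pre c)}) :
    2 * Nat.card (Fin T → Fin (2 ^ b)) ≤
      3 * Nat.card {ρ : Fin T → Fin (2 ^ b) // P (feedG (tape ρ) 0 e N pre)} := by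
  have hb : 0 < 2 ^ b := Nat.pow_pos (by norm_num)
  have he0 : 0 < e := Nat.pos_of_dvd_of_pos he hb
  have key : ∀ l : List ℕ, ∀ c : Fin N → Fin e, l = feedL c 0 0 → pre ++ l.drop 2 = feedP pre c :=
    fun l c hl => by rw [hl]; rfl
  have h1 := feed_two_thirds (T := T) (lx := 0) (ly := 0) hN he (fun l => P (pre ++ l.drop 2)) h
  refine h1.trans (le_of_eq ?_)
  congr 1

/-- Independent coins which are residues of the seeds: a nonnegative function of the coins of
average at most `a / 3` is at most `a` for two thirds of the seeds. -/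
theorem seedsP_two_thirds {ι : Type*} [Fintype ι] [DecidableEq ι] {N e : ℕ} (pre : List ℕ)
    (he0 : 0 < e) (pos : ι → Fin N) (hinj : Function.Injective pos) (m : ι → ℕ)
    (hm : ∀ i, 0 < m i) (hd : ∀ i, m i ∣ e) (X : (∀ i, Fin (m i)) → ℝ) (hX : ∀ c, 0 ≤ X c)
    {a : ℝ} (ha : 0 < a) (h : 3 * av X ≤ a) (P : List ℕ → Prop)
    (hP : ∀ c : Fin N → Fin e,
      X (fun i => ⟨(c (pos i) : ℕ) % m i, Nat.mod_lt _ (hm i)⟩) ≤ a → P (feedP pre c)) :
    2 * Nat.card (Fin N → Fin e) ≤ 3 * Nat.card {c : Fin N → Fin e // P (feedP pre c)} :=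
  seeds_two_thirds (lx := 0) (ly := 0) he0 pos hinj m hm hd X hX ha h
    (fun l => P (pre ++ l.drop 2)) hP

/-- A program for long strings with a specification whose output is a function of the feed; for
short strings the edit distance is computed exactly. -/
theorem solves_split2 {Big : Prog} {good : List ℕ → List ℕ → ℕ → Prop} {t : ℕ → ℝ}
    {n0 c0 S : ℕ} (hn0 : 1 ≤ n0) (hc0 : 2 * n0 + 1 ≤ 2 ^ c0) (hS : 100 ≤ S)
    (T N e : List ℕ → List ℕ → ℕ) (pre : List ℕ → List ℕ → List ℕ)
    (Out : List ℕ → List ℕ → List ℕ → ℕ)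
    (hspec : ∀ (x y : List ℕ) (E : Env), n0 ≤ max x.length y.length →
      E.R = (max x.length y.length + 2) ^ c0 → E.S = S →
      Spec E (State.init x y) Big (T x y) (fun s' => s'.coins = N x y ∧
        s'.reg 2 = Out x y (feedG E.ρ 0 (e x y) (N x y) (pre x y))))
    (ht : ∀ x y : List ℕ, n0 ≤ max x.length y.length →
      ((T x y + 8 : ℕ) : ℝ) ≤ t (max x.length y.length))
    (ht0 : ∀ n : ℕ, n < n0 → ((360 * ((n0 + 1) * (2 * n0 + 1)) + 10 : ℕ) : ℝ) ≤ t n)
    (he : ∀ x y : List ℕ, n0 ≤ max x.length y.length → ∃ j, e x y = 2 ^ j ∧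
      2 ^ j ≤ (max x.length y.length + 2) ^ (c0 * S + 1))
    (hgood0 : ∀ x y : List ℕ, good x y (ED x y))
    (hgood : ∀ x y : List ℕ, n0 ≤ max x.length y.length →
      2 * Nat.card (Fin (N x y) → Fin (e x y)) ≤ 3 * Nat.card {c : Fin (N x y) → Fin (e x y) //
        good x y (Out x y (feedP (pre x y) c))}) :
    Top.Solves (split n0 (small n0) Big) good t (c0 * S + 1) := by
  classical
  have hc0' : 1 ≤ c0 := by
    by_contra h
    obtain rfl : c0 = 0 := by omega
    simp at hc0
    omega
  refine solves_of_spec hc0' hS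
    (fun x y => if max x.length y.length < n0 then 360 * ((n0 + 1) * (2 * n0 + 1)) + 10
      else T x y + 8)
    (fun x y => if max x.length y.length < n0 then 0 else N x y)
    (fun x y ρ => if max x.length y.length < n0 then ED x y
      else Out x y (feedG ρ 0 (e x y) (N x y) (pre x y))) ?_ ?_ ?_
  · intro x y E hR hES
    have hR0 : 2 * n0 + 1 ≤ E.R := by
      rw [hR]
      exact hc0.trans (Nat.pow_le_pow_left (by omega) c0)
    by_cases hlt : max x.length y.length < n0
    · simp only [if_pos hlt]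
      refine (split_spec (d := 360 * ((n0 + 1) * (2 * n0 + 1)) + 2) (by omega) (fun _ => ?_)
        (fun h => absurd hlt (by omega))).le (by omega)
      exact small_spec (by omega) (by omega) hR0
    · simp only [if_neg hlt]
      refine (split_spec (d := T x y) (by omega) (fun h => absurd h hlt)
        (fun h => hspec x y E h hR hES)).le (by omega)
  · intro x y
    by_cases hlt : max x.length y.length < n0
    · simp only [if_pos hlt]
      exact ht0 _ hlt
    · simp only [if_neg hlt]
      exact ht x y (by omega)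
  · intro x y b T' hb hT'
    by_cases hlt : max x.length y.length < n0
    · simp only [if_pos hlt]
      have : Nat.card {ρ : Fin T' → Fin (2 ^ b) // good x y (ED x y)} =
          Nat.card (Fin T' → Fin (2 ^ b)) := by
        refine Nat.card_congr (Equiv.subtypeUnivEquiv fun _ => hgood0 x y)
      rw [this]
      omega
    · simp only [if_neg hlt] at hT' ⊢
      obtain ⟨j, hj1, hj2⟩ := he x y (by omega)
      refine feedG_two_thirds (pre x y) hT' ?_ (fun l => good x y (Out x y l))
        (hgood x y (by omega))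
      rw [hj1]
      exact pow_dvd_pow 2 ((Nat.pow_le_pow_iff_right (by norm_num)).mp (hj2.trans hb))

end Vale.Agent.P315.H873
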