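import Vale.Agent.P315.H207.M2Grid
import Vale.Agent.P315.H514.StB
import Vale.Agent.P315.H608.Time2
import Vale.Agent.P315.H873.MulFits

/-!
# The run of the strategy of the multiplicative version in the main program
-/

set_option autoImplicit false

namespace Vale.Agent.P315.H873

open Vale.Agent.P315.H809 Vale.Agent.P315.H527 Vale.Agent.P315.H608
open Vale.Agent.P315.RAM (len2)
open Vale.Agent.P315.H155 (m2Strat m2_runOk)
open Vale.Agent.P315.H514 (szM szM_le_pow vb_le_pow out_le_pow)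
open Vale.Agent.P315.H486 (MulF)

/-- size of the states -/
def SMul (c : Cst2) (q cb : ℕ) (x y : List ℕ) : ℕ := szM c cb (sl (len2 x y)) (gp c q (len2 x y))

/-- bound of the codes of the queries -/
def VMul (c : Cst2) (q : ℕ) (x y : List ℕ) : ℕ :=
  c.K (gp c q (len2 x y)) * c.D2 (gp c q (len2 x y))

/-- **The conditions of the main program and the run of the strategy**: the first two hypotheses of
`main_solves2` for `mulF` and `m2Strat`. -/
theorem mul_run (c : Cst2) {m : ℕ} (hm : 0 < m) (hbm : c.bm = 20 * m) (hak : 2 ≤ c.ak)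
    (k cd D1 : ℕ) {q : ℕ} (hq : 1 ≤ q) (N₀ : ℕ) : ∃ cb₀ : ℕ, ∀ cb, cb₀ ≤ cb →
    ∃ n1 c1₀ : ℕ, ∀ c1, c1₀ ≤ c1 → ∀ x y : List ℕ,
      (mulF c q cb N₀).Fits x y (SMul c q cb x y) (VMul c q x y)
        ((max x.length y.length + 2) ^ c1) 130 (H933.tpre (GF c q) (len2 x y))
        (H933.visG (GF c q) x y) ∧
      (n1 ≤ max x.length y.length → ∀ cc : ℕ → ℕ, (∀ i, cc i < (mulF c q cb N₀).e (len2 x y)) →
        (m2Strat m k cd D1).RunOk ((mulF c q cb N₀).ans x y) ((mulF c q cb N₀).Q (len2 x y))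
          (((mulF c q cb N₀).pfx (len2 x y) ++
            (List.range ((mulF c q cb N₀).N (len2 x y))).map cc) ++
            H933.visG (GF c q) x y (MulF.sdL ((mulF c q cb N₀).N (len2 x y))
              ((mulF c q cb N₀).NS (len2 x y)) cc))
          (SMul c q cb x y) (VMul c q x y) ((max x.length y.length + 2) ^ c1)) := by
  obtain ⟨cb₀, hfits⟩ := mulF_fits c hq N₀
  obtain ⟨bV, hbV⟩ := vb_le_pow c
  obtain ⟨g₁, hg₁⟩ := H207.M2.exists_fitM (c := c) hm hbm k hak
  obtain ⟨n1, hn1⟩ := Cst2.le_G (c := c) hq g₁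
  refine ⟨cb₀, fun cb hcb => ?_⟩
  obtain ⟨bS, hbS⟩ := szM_le_pow c cb
  obtain ⟨bR, hbR⟩ := out_le_pow c cb
  obtain ⟨c1₀, hc1₀⟩ := hfits cb hcb bS bV
  refine ⟨n1, max c1₀ (2 * bR), fun c1 hc1 x y => ?_⟩
  have hF := hc1₀ c1 ((le_max_left _ _).trans hc1) x y (SMul c q cb x y) (VMul c q x y)
    (hbS q _ hq) (hbV q _ hq)
  refine ⟨hF, fun hn cc hcc => ?_⟩
  set p := len2 x y with hp
  have hslp : sl p = x.length + y.length := rfl
  have hg : g₁ ≤ gp c q p := hn1 _ (by
    rw [hslp]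
    have h1 : max x.length y.length ≤ x.length + y.length := by omega
    exact hn.trans h1)
  have hvl : (H933.visG (GF c q) x y (MulF.sdL ((mulF c q cb N₀).N p)
      ((mulF c q cb N₀).NS p) cc)).length = (mulF c q cb N₀).NV p := hF.vis_len _
  have hfit := hg₁ q cb N₀ p hg (H933.visG (GF c q) x y) cc hvl
  have hlen : ((mulF c q cb N₀).feed (H933.visG (GF c q) x y) p cc).length =
      12 + c.Nu2 (gp c q p) + c.NV (sl p) (gp c q p) := by
    rw [MulF.length_feed hvl]
    rfl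
  have hw : ∀ v ∈ (mulF c q cb N₀).feed (H933.visG (GF c q) x y) p cc,
      v < 2 ^ (cb * Nat.size (sl p + 2)) := by
    intro v hv
    rcases List.mem_append.mp hv with h | h
    · rcases List.mem_append.mp h with h | h
      · exact hF.hpre v h
      · obtain ⟨i, -, rfl⟩ := List.mem_map.mp h
        exact lt_of_lt_of_le (hcc i) hF.e1
    · exact hF.vis_lt _ v h
  have hR : c.K (gp c q p) * 2 ^ (cb * Nat.size (sl p + 2)) + 2 * c.B2 (sl p) (gp c q p) +
      (2 * c.μ2 (sl p) (gp c q p) + 1) ≤ (max x.length y.length + 2) ^ c1 := by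
    refine (hbR q (sl p) hq).trans ?_
    rw [hslp]
    calc (x.length + y.length + 2) ^ bR ≤ ((max x.length y.length + 2) ^ 2) ^ bR :=
          Nat.pow_le_pow_left (add_two_le_sq _ _) _
      _ = (max x.length y.length + 2) ^ (2 * bR) := by rw [← pow_mul]
      _ ≤ _ := Nat.pow_le_pow_right (by omega) ((le_max_right _ _).trans hc1)
  have hK := H207.M2.K_eq2 hbm (gp c q p)
  have h := m2_runOk (cd := cd) (D1 := D1) hfit.fit (H207.M2.grid c hbm q p) hfit.hD
    (fun i => x.getD i 0) (fun i => y.getD i 0) (b := cb * Nat.size (sl p + 2)) hF.hl hw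
    hfit.hpe (Q := c.Q2 (gp c q p)) (V := (max x.length y.length + 2) ^ c1) (by rw [hK]; exact hR)
  rw [← H207.M2.ans_mulF c q cb N₀ x y, hK, ← hbm, hlen] at h
  exact h

end Vale.Agent.P315.H873
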