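import Vale.Agent.P315.Main

/-!
# The feed of the strategy on the word RAM

The feed is the list `lx :: ly :: [c 0, …, c (N - 1)]` with the seeds `c i = ρ (k + i) % e`
(`k` = number of random words used before). `feedProg` stores its reverse in array `3`:
register `70` contains `N`, register `71` contains `e`, registers `0`, `1` contain `lx`, `ly`;
registers `72`, `73` are used as scratch.
-/

set_option autoImplicit false

namespace Vale.Agent.P315.H873

open Vale.Agent.P315

/-- The feed. -/
def feed (ρ : ℕ → ℕ) (k e N lx ly : ℕ) : List ℕ :=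
  lx :: ly :: (List.range N).map fun i => ρ (k + i) % e

@[simp] theorem feed_length (ρ : ℕ → ℕ) (k e N lx ly : ℕ) :
    (feed ρ k e N lx ly).length = N + 2 := by
  simp [feed]

theorem feed_reverse_getD_seed (ρ : ℕ → ℕ) (k e N lx ly : ℕ) {i : ℕ} (hi : i < N) :
    (feed ρ k e N lx ly).reverse.getD i 0 = ρ (k + (N - 1 - i)) % e := by
  have hlen : i < (feed ρ k e N lx ly).reverse.length := by simp; omega
  rw [List.getD_eq_getElem?_getD, List.getElem?_eq_getElem hlen, Option.getD_some,
    List.getElem_reverse]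
  have h : (feed ρ k e N lx ly).length - 1 - i = (N - 1 - i) + 2 := by
    rw [feed_length]; omega
  simp only [h]
  simp [feed]

theorem feed_reverse_getD_y (ρ : ℕ → ℕ) (k e N lx ly : ℕ) :
    (feed ρ k e N lx ly).reverse.getD N 0 = ly := by
  have hlen : N < (feed ρ k e N lx ly).reverse.length := by simp
  rw [List.getD_eq_getElem?_getD, List.getElem?_eq_getElem hlen, Option.getD_some,
    List.getElem_reverse]
  have h : (feed ρ k e N lx ly).length - 1 - N = 1 := by
    rw [feed_length]; omega
  simp only [h]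
  simp [feed]

theorem feed_reverse_getD_x (ρ : ℕ → ℕ) (k e N lx ly : ℕ) :
    (feed ρ k e N lx ly).reverse.getD (N + 1) 0 = lx := by
  have hlen : N + 1 < (feed ρ k e N lx ly).reverse.length := by simp
  rw [List.getD_eq_getElem?_getD, List.getElem?_eq_getElem hlen, Option.getD_some,
    List.getElem_reverse]
  have h : (feed ρ k e N lx ly).length - 1 - (N + 1) = 0 := by
    rw [feed_length]; omega
  simp only [h]
  simp [feed]

/-- One seed. -/
def feedCell : Prog :=
  .seq (.rand 73) (.seq (.put 3 (.op .sub (.op .sub (.reg 70) (.lit 1)) (.reg 72))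
    (emod (.reg 73) (.reg 71))) (.set 73 (.lit 0)))

/-- The reverse of the feed is stored in array `3`. -/
def feedProg : Prog :=
  .seq (.loop 72 (.reg 70) feedCell)
    (.seq (.put 3 (.reg 70) (.reg 1)) (.put 3 (.op .add (.reg 70) (.lit 1)) (.reg 0)))

theorem feedProg_wr : ∀ k ∈ feedProg.wr, k = 72 ∨ k = 73 := by
  intro k hk
  simpa [feedProg, feedCell, Prog.wr] using hk

theorem feedProg_wa : ∀ j ∈ feedProg.wa, j = 3 := by
  intro k hk
  simpa [feedProg, feedCell, Prog.wa] using hk

theorem feedCell_spec {E : Env} {s : State} {t N e : ℕ} (h70 : s.reg 70 = N)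
    (h71 : s.reg 71 = e) (h72 : s.reg 72 = t) (he : 0 < e) :
    Spec E s feedCell 12 (fun s' => s'.coins = s.coins + 1 ∧
      ∀ p, s'.arr 3 p = if p = N - 1 - t then E.ρ s.coins % e else s.arr 3 p) := by
  intro hb
  have hR := E.hR
  have hRN := E.R_lt_N
  have heR : e ≤ E.R := by rw [← h71]; exact hb.reg 71
  have hNR : N ≤ E.R := by rw [← h70]; exact hb.reg 70
  have htR : t ≤ E.R := by rw [← h72]; exact hb.reg 72
  have hρ := E.hρ s.coins
  have hmod : E.ρ s.coins % e < e := Nat.mod_lt _ he
  have er : (feedCell.run E.ρ s).reg = fun k => if k = 73 then 0 else s.reg k := by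
    funext k
    by_cases hk : k = 73
    · simp [feedCell, Prog.run, hk]
    · simp [feedCell, Prog.run, hk]
  have ea : ∀ j p, (feedCell.run E.ρ s).arr j p =
      if j = 3 ∧ p = N - 1 - t then E.ρ s.coins % e else s.arr j p := by
    intro j p
    simp [feedCell, Prog.run, Expr.eval, Op.eval, h70, h71, h72]
  refine ⟨⟨rfl, ?_⟩, ?_, ?_, ?_⟩
  · intro p
    rw [ea]
    simp
  · refine ⟨fun k => ?_, fun j hj p => ?_, fun p => ?_, fun p => ?_⟩
    · rw [er]; dsimp only; split_ifs; exacts [by omega, hb.reg k]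
    · rw [ea]; split_ifs; exacts [by omega, hb.arr j hj p]
    · rw [ea, if_neg (by omega)]; exact hb.x p
    · rw [ea, if_neg (by omega)]; exact hb.y p
  · simp [feedCell, Prog.time, Expr.cost, emod]
  · simp only [feedCell, Prog.top, Expr.top, emod, Prog.run, State.setReg_reg, Op.eval,
      Expr.eval, h70, h71, h72]
    norm_num
    refine ⟨?_, ?_, ?_, ?_⟩ <;> omega

/-- The seeds, in reversed order. -/
theorem feedLoop_spec {E : Env} {s : State} {N e : ℕ} (h70 : s.reg 70 = N)
    (h71 : s.reg 71 = e) (he : 0 < e) :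
    Spec E s (.loop 72 (.reg 70) feedCell) (2 + N * 14) (fun s' => s'.coins = s.coins + N ∧
      ∀ p, p < N → s'.arr 3 p = E.ρ (s.coins + (N - 1 - p)) % e) := by
  refine Spec.mono (Spec.loop (a := 2) (d := N * 14) N 12 (fun t s' => s'.coins = s.coins + t ∧
    ∀ p, N - t ≤ p → p < N → s'.arr 3 p = E.ρ (s.coins + (N - 1 - p)) % e) rfl
    (by simp [Expr.cost]) le_rfl (by simpa using h70) (fun hb => ?_) (fun _ => ?_) ?_) le_rfl ?_
  · rw [← h70]; exact hb.reg 70
  · exact ⟨by simp, fun p h1 h2 => by omega⟩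
  · rintro t ht s' hb hf ⟨i1, i2⟩
    have h70' : s'.reg 70 = N := by
      rw [hf.reg 70 (by simp [feedCell, Prog.wr])]; exact h70
    have h71' : s'.reg 71 = e := by
      rw [hf.reg 71 (by simp [feedCell, Prog.wr])]; exact h71
    refine Spec.mono (feedCell_spec (t := t) (N := N) (e := e) (by simpa using h70')
      (by simpa using h71') (by simp) he) le_rfl ?_
    rintro s'' ⟨k1, k2⟩
    refine ⟨by rw [k1]; simp only [State.setReg_coins]; omega, fun p hp hpN => ?_⟩
    rw [k2]
    simp only [State.setReg_coins, State.setReg_arr]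
    by_cases hp' : p = N - 1 - t
    · rw [if_pos hp', i1, hp']
      congr 2
      omega
    · rw [if_neg hp']
      exact i2 p (by omega) hpN
  · rintro s' ⟨h1, h2⟩
    exact ⟨h1, fun p hp => h2 p (by omega) hp⟩

theorem feedProg_spec {E : Env} {s : State} {N e lx ly : ℕ} (h0 : s.reg 0 = lx)
    (h1 : s.reg 1 = ly) (h70 : s.reg 70 = N) (h71 : s.reg 71 = e) (he : 0 < e) :
    Spec E s feedProg (20 * N + 20) (fun s' => s'.coins = s.coins + N ∧
      ∀ i, i < (feed E.ρ s.coins e N lx ly).reverse.length →
        s'.arr 3 i = (feed E.ρ s.coins e N lx ly).reverse.getD i 0) := by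
  unfold feedProg
  refine Spec.mono (Spec.seq (a := 10) (d := N * 14) 2 (N * 14) 8 0
    (fun s' => s'.coins = s.coins + N ∧
      ∀ p, p < N → s'.arr 3 p = E.ρ (s.coins + (N - 1 - p)) % e) (by omega) (by omega)
    (feedLoop_spec h70 h71 he) ?_) (by omega) fun _ h => h
  rintro s' hf ⟨i1, i2⟩
  have g0 : s'.reg 0 = lx := by
    rw [hf.reg 0 (by simp [feedCell, Prog.wr])]; exact h0
  have g1 : s'.reg 1 = ly := by
    rw [hf.reg 1 (by simp [feedCell, Prog.wr])]; exact h1
  have g70 : s'.reg 70 = N := by
    rw [hf.reg 70 (by simp [feedCell, Prog.wr])]; exact h70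
  refine Spec.put_seq (a := 8) (d := 0) N ly (by omega) rfl rfl (by simp [Expr.cost]) g70 g1
    (fun hb => by rw [← g1]; exact hb.reg 1) ?_
  refine Spec.put (N + 1) lx (by omega) rfl rfl (by simp [Expr.cost]) ?_ ?_
    (fun hb => by rw [← g0]; exact hb.reg 0) ?_
  · simp [Expr.eval, Op.eval, g70]
  · simp [Expr.eval, g0]
  · intro _
    refine ⟨i1, fun i hi => ?_⟩
    rw [List.length_reverse, feed_length] at hi
    simp only [State.setArr_arr, true_and]
    rcases Nat.lt_trichotomy i N with h | h | h
    · rw [if_neg (by omega), if_neg (by omega), i2 i h, feed_reverse_getD_seed _ _ _ _ _ _ h]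
    · subst h
      rw [if_neg (by omega), if_pos rfl, feed_reverse_getD_y]
    · obtain rfl : i = N + 1 := by omega
      rw [if_pos rfl, feed_reverse_getD_x]

end Vale.Agent.P315.H873
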