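import Vale.Agent.P315.H873.Glue3

/-!
# From specifications to `Solves`: general output, one good block of random words

The output is any function of the random words; for long strings there is a block of random words
(`N` words from number `k` on, modulo `e`) such that the output is good whenever the feed made of
this block has the property `Q`, which holds for two thirds of the seeds.
-/

set_option autoImplicit false

open Finset

namespace Vale.Agent.P315.H873

open Vale.Agent.P315 Vale.Agent.P315.H731 Vale.Agent.P315.H992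

theorem feedG_eq_off {e N : ℕ} (he : 0 < e) (ρ : ℕ → ℕ) (k : ℕ) (pre : List ℕ) :
    feedG ρ k e N pre = feedP pre (coinsOf (fun i : Fin N => k + (i : ℕ)) (fun _ => e)
      (fun _ => he) ρ) := by
  unfold feedG feedP
  congr 1
  apply List.ext_getElem
  · simp
  · intro i h1 h2
    simp [coinsOf]

/-- The seeds in a block of the tape are independent and uniform. -/
theorem feedG_two_thirds_off {b T e N k : ℕ} (pre : List ℕ) (hN : k + N ≤ T) (he : e ∣ 2 ^ b)
    (P : List ℕ → Prop)
    (h : 2 * Nat.card (Fin N → Fin e) ≤ 3 * Nat.card {c : Fin N → Fin e // P (feedP pre c)}) :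
    2 * Nat.card (Fin T → Fin (2 ^ b)) ≤
      3 * Nat.card {ρ : Fin T → Fin (2 ^ b) // P (feedG (tape ρ) k e N pre)} := by
  classical
  have hb : 0 < 2 ^ b := Nat.pow_pos (by norm_num)
  have he0 : 0 < e := Nat.pos_of_dvd_of_pos he hb
  have h1 := tape_card (ι := Fin N) (N := 2 ^ b) (T := T) (fun i => k + (i : ℕ))
    (fun i j hij => Fin.ext (by simpa using hij)) (fun i => by have := i.isLt; omega)
    (fun _ => e) (fun _ => he0) (fun _ => he) hb (fun c => P (feedP pre c))
  have h3 : Nat.card {ρ : Fin T → Fin (2 ^ b) // P (feedG (tape ρ) k e N pre)} =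
      (univ.filter (fun ρ : Fin T → Fin (2 ^ b) => P (feedP pre (coinsOf
        (fun i : Fin N => k + (i : ℕ)) (fun _ => e) (fun _ => he0) (tape ρ))))).card := by
    rw [Nat.card_eq_fintype_card, Fintype.card_subtype]
    congr 1
    ext ρ
    simp only [mem_filter, mem_univ, true_and]
    rw [feedG_eq_off he0]
  have h4 : Nat.card {c : Fin N → Fin e // P (feedP pre c)} =
      (univ.filter (fun c : Fin N → Fin e => P (feedP pre c))).card := by
    rw [Nat.card_eq_fintype_card, Fintype.card_subtype]
  rw [h3]
  rw [h4] at h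
  simp only [Nat.card_eq_fintype_card, Fintype.card_pi, Fintype.card_fin, prod_const, card_univ]
    at h h1 ⊢
  have h5 : 0 < e ^ N := Nat.pow_pos he0
  refine Nat.le_of_mul_le_mul_right ?_ h5
  calc 2 * (2 ^ b) ^ T * e ^ N = (2 * e ^ N) * (2 ^ b) ^ T := by ring
    _ ≤ (3 * (univ.filter (fun c : Fin N → Fin e => P (feedP pre c))).card) * (2 ^ b) ^ T :=
        Nat.mul_le_mul_right _ h
    _ = 3 * ((univ.filter (fun c : Fin N → Fin e => P (feedP pre c))).card * (2 ^ b) ^ T) := by
        ring
    _ = _ := by
        rw [← h1]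
        ring

/-- A program for long strings whose output is a function of the random words; for short strings
the edit distance is computed exactly. -/
theorem solves_split4 {Big : Prog} {good : List ℕ → List ℕ → ℕ → Prop} {t : ℕ → ℝ}
    {n0 c0 S : ℕ} (hn0 : 1 ≤ n0) (hc0 : 2 * n0 + 1 ≤ 2 ^ c0) (hS : 100 ≤ S)
    (T Nc : List ℕ → List ℕ → ℕ) (Out : List ℕ → List ℕ → (ℕ → ℕ) → ℕ)
    (hspec : ∀ (x y : List ℕ) (E : Env), n0 ≤ max x.length y.length →
      E.R = (max x.length y.length + 2) ^ c0 → E.S = S →
      Spec E (State.init x y) Big (T x y) (fun s' => Nc x y ≤ s'.coins ∧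
        s'.reg 2 = Out x y E.ρ))
    (ht : ∀ x y : List ℕ, n0 ≤ max x.length y.length →
      ((T x y + 8 : ℕ) : ℝ) ≤ t (max x.length y.length))
    (ht0 : ∀ n : ℕ, n < n0 → ((360 * ((n0 + 1) * (2 * n0 + 1)) + 10 : ℕ) : ℝ) ≤ t n)
    (hgood0 : ∀ x y : List ℕ, good x y (ED x y))
    (hgood : ∀ x y : List ℕ, n0 ≤ max x.length y.length →
      ∃ (k N j : ℕ) (pre : List ℕ) (Q : List ℕ → Prop), k + N ≤ Nc x y ∧
        2 ^ j ≤ (max x.length y.length + 2) ^ (c0 * S + 1) ∧
        (∀ ρ : ℕ → ℕ, Q (feedG ρ k (2 ^ j) N pre) → good x y (Out x y ρ)) ∧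
        2 * Nat.card (Fin N → Fin (2 ^ j)) ≤
          3 * Nat.card {c : Fin N → Fin (2 ^ j) // Q (feedP pre c)}) :
    Top.Solves (split n0 (small n0) Big) good t (c0 * S + 1) := by
  classical
  have hc0' : 1 ≤ c0 := by
    by_contra h
    obtain rfl : c0 = 0 := by omega
    simp at hc0
    omega
  refine solves_of_spec_ge hc0' hS
    (fun x y => if max x.length y.length < n0 then 360 * ((n0 + 1) * (2 * n0 + 1)) + 10
      else T x y + 8)
    (fun x y => if max x.length y.length < n0 then 0 else Nc x y)
    (fun x y ρ => if max x.length y.length < n0 then ED x y else Out x y ρ) ?_ ?_ ?_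
  · intro x y E hR hES
    have hR0 : 2 * n0 + 1 ≤ E.R := by
      rw [hR]
      exact hc0.trans (Nat.pow_le_pow_left (by omega) c0)
    by_cases hlt : max x.length y.length < n0
    · simp only [if_pos hlt]
      refine (split_spec (d := 360 * ((n0 + 1) * (2 * n0 + 1)) + 2) (by omega) (fun _ => ?_)
        (fun h => absurd hlt (by omega))).le (by omega)
      exact (small_spec (by omega) (by omega) hR0).mono le_rfl fun s' h => ⟨Nat.zero_le _, h.2⟩
    · simp only [if_neg hlt]
      refine (split_spec (d := T x y) (by omega) (fun h => absurd h hlt)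
        (fun h => hspec x y E h hR hES)).le (by omega)
  · intro x y
    by_cases hlt : max x.length y.length < n0
    · simp only [if_pos hlt]
      exact ht0 _ hlt
    · simp only [if_neg hlt]
      exact ht x y (by omega)
  · intro x y b T' hb hT'
    by_cases hlt : max x.length y.length < n0
    · simp only [if_pos hlt]
      have : Nat.card {ρ : Fin T' → Fin (2 ^ b) // good x y (ED x y)} =
          Nat.card (Fin T' → Fin (2 ^ b)) := by
        refine Nat.card_congr (Equiv.subtypeUnivEquiv fun _ => hgood0 x y)
      rw [this]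
      omega
    · simp only [if_neg hlt] at hT' ⊢
      obtain ⟨k, N, j, pre, Q, hk, hj, himp, hcard⟩ := hgood x y (by omega)
      have hdvd : 2 ^ j ∣ 2 ^ b :=
        pow_dvd_pow 2 ((Nat.pow_le_pow_iff_right (by norm_num)).mp (hj.trans hb))
      refine (feedG_two_thirds_off pre (hk.trans hT') hdvd Q hcard).trans
        (Nat.mul_le_mul_left _ ?_)
      exact Nat.card_le_card_of_injective (Subtype.map id fun ρ h => himp (tape ρ) h)
        (fun z z' hz => Subtype.ext (by simpa [Subtype.map] using congrArg Subtype.val hz))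

end Vale.Agent.P315.H873
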