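import Vale.Agent.P315.RAM.Oracle

/-!
# Parameters as polynomial time functions

`exists_reads`: a list of polynomial time functions of the object on the memory word is computed
into a list of registers. `exists_params`: the same for functions of the list `[lx, ly]`, where
`lx`, `ly` are the contents of the registers `0` and `1`.
-/

set_option autoImplicit false

namespace Vale.Agent.P315.H873

open Vale.Agent.P315 Vale.Agent.P315.RAM
open Vale.Agent.Lib.PolyTime (Word pb pr FP PT Enc enc esize)

/-- Registers and arrays written by the programs of this file. -/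
structure PFit (P : Prog) (L : Lay) (z W : ℕ) (rs ys : List ℕ) : Prop where
  wr : ∀ i ∈ P.wr, i ∈ rs ∨ (z ≤ i ∧ i ≤ z + 4) ∨ i = L.c ∨ i = L.B ∨ (L.r ≤ i ∧ i ≤ L.r + W)
  wa : ∀ i ∈ P.wa, i ∈ ys ∨ (L.a ≤ i ∧ i ≤ L.a + W)

/-- Places of the target registers. -/
structure RPlaces (L : Lay) (z : ℕ) (rs : List ℕ) : Prop where
  ok : L.Ok
  zB : z + 4 < L.B
  zc : z + 4 < L.c
  nodup : rs.Nodup
  lt : ∀ r ∈ rs, 2 ≤ r ∧ (r < z ∨ z + 4 < r) ∧ r < L.B ∧ r < L.c

theorem exists_reads {α : Type*} [Enc α] (gs : List (α → ℕ)) (hgs : ∀ g ∈ gs, PT ∅ g) :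
    ∃ (W k : ℕ) (P : Lay → ℕ → List ℕ → Prog), (∀ L z rs, PFit (P L z rs) L z W rs []) ∧
      ∀ (L : Lay) (z : ℕ) (rs : List ℕ), RPlaces L z rs → ∀ (E : Env) (σ : State) (a : α),
        Mem σ L a → (esize a + 2) ^ k ≤ E.R → (∀ g ∈ gs, g a ≤ E.R) →
        Spec E σ (P L z rs) (gs.length * ((esize a + 2) ^ k + 2) + 2)
          (fun σ' => Mem σ' L a ∧ ∀ p ∈ rs.zip gs, σ'.reg p.1 = p.2 a) := by
  induction gs with
  | nil =>
    refine ⟨0, 0, fun L z rs => .set z (.lit 0), fun L z rs => ⟨fun i hi => ?_, fun i hi => ?_⟩,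
      fun L z rs hP E σ a ha hR hg => ?_⟩
    · simp [Prog.wr] at hi
      right; left; omega
    · simp [Prog.wa] at hi
    · have h1 := hP.zB
      have h2 := hP.ok.B
      refine Spec.set1 0 rfl (by simp [Expr.cost]) rfl (fun _ => Nat.zero_le _)
        fun _ => ⟨?_, by simp⟩
      exact ha.congr (by rw [State.setReg_reg, if_neg (by omega)]) rfl
  | cons g gs ih =>
    obtain ⟨W₁, k₁, P₁, hF₁, hS₁⟩ := ih fun g' hg' => hgs g' (List.mem_cons_of_mem _ hg')
    obtain ⟨W₂, k₂, P₂, hF₂, hS₂⟩ := exists_read (hgs g List.mem_cons_self)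
    refine ⟨W₁ + W₂, max k₁ k₂, fun L z rs => match rs with
      | [] => .set z (.lit 0)
      | r :: rs' => .seq (P₂ L z) (.seq (.set r (.reg z)) (P₁ L z rs')), ?_, ?_⟩
    · intro L z rs
      cases rs with
      | nil =>
        refine ⟨fun i hi => ?_, fun i hi => ?_⟩
        · simp [Prog.wr] at hi
          right; left; omega
        · simp [Prog.wa] at hi
      | cons r rs' =>
        refine ⟨fun i hi => ?_, fun i hi => ?_⟩
        · simp only [Prog.wr, List.mem_append, List.mem_cons, List.not_mem_nil, or_false] at hi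
          rcases hi with h | h | h
          · have := (hF₂ L z).1 i h
            right; omega
          · left; simp [h]
          · rcases (hF₁ L z rs').wr i h with h' | h'
            · left; simp [h']
            · right; omega
        · simp only [Prog.wa, List.mem_append, List.not_mem_nil, false_or] at hi
          rcases hi with h | h
          · have := (hF₂ L z).2 i h
            right; omega
          · have := (hF₁ L z rs').wa i h
            simp only [List.not_mem_nil, false_or] at this
            right; omega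
    · intro L z rs hP E σ a ha hR hg
      have hzB := hP.zB
      have hzc := hP.zc
      have hBr := hP.ok.B
      have hcr := hP.ok.c
      have hk₁ : (esize a + 2) ^ k₁ ≤ (esize a + 2) ^ max k₁ k₂ :=
        Nat.pow_le_pow_right (by omega) (le_max_left _ _)
      have hk₂ : (esize a + 2) ^ k₂ ≤ (esize a + 2) ^ max k₁ k₂ :=
        Nat.pow_le_pow_right (by omega) (le_max_right _ _)
      cases rs with
      | nil =>
        refine (Spec.set1 0 rfl (by simp [Expr.cost]) rfl (fun _ => Nat.zero_le _)
          fun _ => ⟨?_, by simp⟩ : Spec E σ (.set z (.lit 0)) 2 _).le (by omega)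
        exact ha.congr (by rw [State.setReg_reg, if_neg (by omega)]) rfl
      | cons r rs' =>
        obtain ⟨hr2, hrz, hrB, hrc⟩ := hP.lt r List.mem_cons_self
        have hnd := List.nodup_cons.mp hP.nodup
        have hP' : RPlaces L z rs' := ⟨hP.ok, hzB, hzc, hnd.2,
          fun r' hr' => hP.lt r' (List.mem_cons_of_mem _ hr')⟩
        have hlen : (g :: gs).length * ((esize a + 2) ^ max k₁ k₂ + 2) + 2 =
            (esize a + 2) ^ max k₁ k₂ + (2 + (gs.length * ((esize a + 2) ^ max k₁ k₂ + 2) + 2)) := by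
          rw [List.length_cons]; ring
        rw [hlen]
        refine Spec.seq0 _ _ (fun σ' => Mem σ' L a ∧ σ'.reg z = g a)
          ((hS₂ L hP.ok z (Or.inr (by omega)) E σ a ha (by omega)
            (hg g List.mem_cons_self)).le hk₂) ?_
        rintro σ1 - ⟨i1, i2⟩
        refine Spec.seq0 2 _ (fun σ' => σ' = σ1.setReg r (g a)) (Spec.set1 (g a) rfl
          (by simp [Expr.cost]) (by simpa using i2) (fun _ => hg g List.mem_cons_self)
          fun _ => rfl) ?_
        rintro σ2 - rfl
        have j1 : Mem (σ1.setReg r (g a)) L a :=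
          i1.congr (by rw [State.setReg_reg, if_neg (by omega)]) rfl
        have hle := Nat.mul_le_mul_left gs.length (Nat.add_le_add_right hk₁ 2)
        refine ((hS₁ L z rs' hP' E _ a j1 (by omega) fun g' hg' =>
          hg g' (List.mem_cons_of_mem _ hg')).withFrame).mono (by omega) ?_
        rintro σ3 ⟨hf, k1, k2⟩
        refine ⟨k1, fun p hp => ?_⟩
        rw [List.zip_cons_cons, List.mem_cons] at hp
        rcases hp with rfl | hp
        · show σ3.reg r = g a
          rw [hf.reg r]
          · simp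
          · intro h
            rcases (hF₁ L z rs').wr r h with h' | h'
            · exact hnd.1 h'
            · omega
        · exact k2 p hp

/-- Put the contents of the registers `0` and `1` on the memory word. -/
def loadProg (L : Lay) (z y : ℕ) : Prog :=
  .seq (.set L.r (.lit 0)) (.seq (.set (z + 1) (eadd (.reg 0) (.reg 1)))
    (.seq (.set z (.reg 1)) (.seq (pushNat z y L.a L.r)
      (.seq (.set z (.reg 0)) (pushNat z y L.a L.r)))))

theorem loadProg_fit (L : Lay) (z y : ℕ) : PFit (loadProg L z y) L z 0 [] [y] := by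
  refine ⟨fun i hi => ?_, fun i hi => ?_⟩
  · simp only [loadProg, Prog.wr, List.mem_append, List.mem_cons, List.not_mem_nil,
      or_false] at hi
    have hp := @pushNat_wr z y L.a L.r i
    right
    rcases hi with h | h | h | h | h | h
    · omega
    · omega
    · omega
    · have := hp h; omega
    · omega
    · have := hp h; omega
  · simp only [loadProg, Prog.wa, List.mem_append, List.mem_cons, List.not_mem_nil,
      or_false, false_or] at hi ⊢
    have hp := @pushNat_wa z y L.a L.r i
    rcases hi with h | h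
    · have := hp h; omega
    · have := hp h; omega

theorem esize_two_le (lx ly : ℕ) : esize [lx, ly] ≤ 4 * Nat.size (lx + ly) + 2 := by
  have h1 : esize [lx, ly] = 2 * lx.bits.length + (2 * ly.bits.length + 0 + 1) + 1 := by
    show (enc (lx :: ly :: ([] : List ℕ))).length = _
    rw [Vale.Agent.Lib.PolyTime.enc_cons, Vale.Agent.Lib.PolyTime.length_pr,
      Vale.Agent.Lib.PolyTime.enc_cons, Vale.Agent.Lib.PolyTime.length_pr,
      Vale.Agent.Lib.PolyTime.enc_nil]
    rfl
  have h2 : lx.bits.length ≤ Nat.size (lx + ly) := by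
    rw [Nat.size_eq_bits_len]; exact Nat.size_le_size (by omega)
  have h3 : ly.bits.length ≤ Nat.size (lx + ly) := by
    rw [Nat.size_eq_bits_len]; exact Nat.size_le_size (by omega)
  omega

theorem loadProg_spec {E : Env} {L : Lay} (hL : L.Ok) {z y : ℕ} (hz : 2 ≤ z)
    (hzB : z + 4 < L.B) (hy : 2 ≤ y) (hya : y ≠ L.a) (σ : State) {lx ly : ℕ}
    (h0 : σ.reg 0 = lx) (h1 : σ.reg 1 = ly) (hR : 4 * (lx + ly) + 10 ≤ E.R) :
    Spec E σ (loadProg L z y) (82 * (lx + ly) + 60) (fun σ' => Mem σ' L [lx, ly]) := by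
  have hBr := hL.B
  have hlt : ∀ v, v ≤ lx + ly → v < 2 ^ (lx + ly) := fun v hv =>
    lt_of_le_of_lt hv Nat.lt_two_pow_self
  refine (Spec.seq0 2 (4 + (2 + ((41 * (lx + ly) + 20) + (2 + (41 * (lx + ly) + 20)))))
    (fun σ' => σ' = σ.setReg L.r 0) ?_ ?_).le (by omega)
  · exact Spec.set0 0 rfl rfl (fun _ => Nat.zero_le _) fun _ => rfl
  rintro σ1 - rfl
  refine Spec.seq0 4 _ (fun σ' => σ' = (σ.setReg L.r 0).setReg (z + 1) (lx + ly)) ?_ ?_
  · refine Spec.set0 (lx + ly) rfl ?_ (fun _ => by omega) fun _ => rfl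
    simp only [eadd_eval, reg_eval, State.setReg_reg]
    rw [if_neg (by omega), if_neg (by omega), h0, h1]
  rintro σ2 - rfl
  refine Spec.seq0 2 _ (fun σ' => σ' = ((σ.setReg L.r 0).setReg (z + 1) (lx + ly)).setReg z ly)
    ?_ ?_
  · refine Spec.set0 ly rfl ?_ (fun _ => by omega) fun _ => rfl
    simp only [reg_eval, State.setReg_reg]
    rw [if_neg (by omega), if_neg (by omega), h1]
  rintro σ3 - rfl
  have hm : Mem (((σ.setReg L.r 0).setReg (z + 1) (lx + ly)).setReg z ly) L ([] : List ℕ) := by
    refine ⟨?_, fun i hi => by simp [Vale.Agent.Lib.PolyTime.enc_nil] at hi⟩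
    simp only [State.setReg_reg, Vale.Agent.Lib.PolyTime.enc_nil, List.length_nil]
    rw [if_neg (by omega), if_neg (by omega), if_pos trivial]
  refine Spec.seq0 _ _ (fun σ' => Mem σ' L (ly, ([] : List ℕ))) (push_spec (m := lx + ly) hL hy
    hya (fun i hi => by omega) _ (by simp) (by simp) (hlt _ (by omega)) hm ?_) ?_
  · simp only [esize, Vale.Agent.Lib.PolyTime.enc_nil, List.length_nil]
    omega
  intro σ4 hf4 h4
  have h4' : Mem σ4 L [ly] := h4
  have hreg : ∀ i, (i < z + 2 ∨ z + 4 < i) → i ≠ L.r → σ4.reg i =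
      (((σ.setReg L.r 0).setReg (z + 1) (lx + ly)).setReg z ly).reg i := by
    intro i hi hi'
    refine hf4.reg i fun h => ?_
    rcases pushNat_wr i h with h | h <;> omega
  refine Spec.seq0 2 _ (fun σ' => σ' = σ4.setReg z lx) ?_ ?_
  · refine Spec.set0 lx rfl ?_ (fun _ => by omega) fun _ => rfl
    simp only [reg_eval]
    rw [hreg 0 (by omega) (by omega)]
    simp only [State.setReg_reg]
    rw [if_neg (by omega), if_neg (by omega), if_neg (by omega), h0]
  rintro σ5 - rfl
  have h5 : Mem (σ4.setReg z lx) L [ly] := h4'.congr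
    (by rw [State.setReg_reg, if_neg (by omega)]) rfl
  refine (push_spec (m := lx + ly) hL hy hya (fun i hi => by omega) _ (by simp) ?_
    (hlt _ (by omega)) h5 ?_).mono le_rfl fun σ' h => h
  · rw [State.setReg_reg, if_neg (by omega), hreg _ (by omega) (by omega)]
    simp
  · have h6 : esize [ly] = 2 * ly.bits.length + 0 + 1 := by
      show (enc (ly :: ([] : List ℕ))).length = _
      rw [Vale.Agent.Lib.PolyTime.enc_cons, Vale.Agent.Lib.PolyTime.length_pr,
        Vale.Agent.Lib.PolyTime.enc_nil]
      rfl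
    have h7 : ly.bits.length ≤ ly := by
      rw [Nat.size_eq_bits_len]
      exact Nat.size_le.mpr Nat.lt_two_pow_self
    omega

/-- Parameters: polynomial time functions of `[lx, ly]` are computed into registers. -/
theorem exists_params (gs : List (List ℕ → ℕ)) (hgs : ∀ g ∈ gs, PT ∅ g) :
    ∃ (W k : ℕ) (P : Lay → ℕ → ℕ → List ℕ → Prog),
      (∀ (L : Lay) z y rs, PFit (P L z y rs) L z W rs [y]) ∧
      ∀ (L : Lay) (z y : ℕ) (rs : List ℕ), RPlaces L z rs → 2 ≤ z → 2 ≤ y → y ≠ L.a →
        ∀ (E : Env) (σ : State) (lx ly : ℕ), σ.reg 0 = lx → σ.reg 1 = ly →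
        4 * (lx + ly) + 10 ≤ E.R → (4 * Nat.size (lx + ly) + 4) ^ k ≤ E.R →
        (∀ g ∈ gs, g [lx, ly] ≤ E.R) →
        Spec E σ (P L z y rs)
          (82 * (lx + ly) + 60 + (gs.length * ((4 * Nat.size (lx + ly) + 4) ^ k + 2) + 2))
          (fun σ' => ∀ p ∈ rs.zip gs, σ'.reg p.1 = p.2 [lx, ly]) := by
  obtain ⟨W, k, P, hF, hS⟩ := exists_reads gs hgs
  refine ⟨W, k, fun L z y rs => .seq (loadProg L z y) (P L z rs), ?_, ?_⟩
  · intro L z y rs
    have h1 := loadProg_fit L z y
    have h2 := hF L z rs
    refine ⟨fun i hi => ?_, fun i hi => ?_⟩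
    · simp only [Prog.wr, List.mem_append] at hi
      rcases hi with h | h
      · have := h1.wr i h
        simp only [List.not_mem_nil, false_or] at this
        right; omega
      · exact h2.wr i h
    · simp only [Prog.wa, List.mem_append] at hi
      rcases hi with h | h
      · rcases h1.wa i h with h' | h'
        · exact Or.inl h'
        · right; omega
      · have := h2.wa i h
        simp only [List.not_mem_nil, false_or] at this
        exact Or.inr this
  · intro L z y rs hP hz hy hya E σ lx ly h0 h1 hR hRk hg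
    have hle : (esize [lx, ly] + 2) ^ k ≤ (4 * Nat.size (lx + ly) + 4) ^ k :=
      Nat.pow_le_pow_left (by have := esize_two_le lx ly; omega) k
    refine Spec.seq0 _ _ _ (loadProg_spec hP.ok hz hP.zB hy hya σ h0 h1 hR) ?_
    intro σ1 _ i1
    refine (hS L z rs hP E σ1 [lx, ly] i1 (by omega) hg).mono ?_ fun σ' h => h.2
    have := Nat.mul_le_mul_left gs.length (Nat.add_le_add_right hle 2)
    omega

end Vale.Agent.P315.H873
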