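import Vale.Agent.P315.Main

/-!
# The array of seeds on the word RAM

`seedProg i r A e c`: the array `A` is filled with `reg c` random words modulo `reg e`
(`i` = counter, `r` = scratch register).
-/

set_option autoImplicit false

namespace Vale.Agent.P315.H873

open Vale.Agent.P315

/-- One seed. -/
def seedCell (i r A e : ℕ) : Prog :=
  .seq (.rand r) (.seq (.put A (.reg i) (emod (.reg r) (.reg e))) (.set r (.lit 0)))

/-- Fill the array `A` with `reg c` seeds. -/
def seedProg (i r A e c : ℕ) : Prog := .loop i (.reg c) (seedCell i r A e)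

theorem seedProg_wr (i r A e c : ℕ) : ∀ k ∈ (seedProg i r A e c).wr, k = i ∨ k = r := by
  intro k hk
  simpa [seedProg, seedCell, Prog.wr] using hk

theorem seedProg_wa (i r A e c : ℕ) : ∀ j ∈ (seedProg i r A e c).wa, j = A := by
  intro k hk
  simpa [seedProg, seedCell, Prog.wa] using hk

theorem seedCell_spec {E : Env} {s : State} {i r A e t Q : ℕ} (hA : 2 ≤ A) (hir : i ≠ r)
    (her : e ≠ r) (hi : s.reg i = t) (he : s.reg e = Q) (hQ : 0 < Q) :
    Spec E s (seedCell i r A e) 10 (fun s' => s'.coins = s.coins + 1 ∧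
      ∀ p, s'.arr A p = if p = t then E.ρ s.coins % Q else s.arr A p) := by
  intro hb
  have hR := E.hR
  have hRN := E.R_lt_N
  have hQR : Q ≤ E.R := by rw [← he]; exact hb.reg e
  have htR : t ≤ E.R := by rw [← hi]; exact hb.reg i
  have hρ := E.hρ s.coins
  have hmod : E.ρ s.coins % Q < Q := Nat.mod_lt _ hQ
  have er : ((seedCell i r A e).run E.ρ s).reg = fun k => if k = r then 0 else s.reg k := by
    funext k
    by_cases hk : k = r
    · simp [seedCell, Prog.run, hk]
    · simp [seedCell, Prog.run, hk]
  have ea : ∀ j p, ((seedCell i r A e).run E.ρ s).arr j p =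
      if j = A ∧ p = t then E.ρ s.coins % Q else s.arr j p := by
    intro j p
    simp [seedCell, Prog.run, hi, he, hir, her]
  refine ⟨⟨rfl, ?_⟩, ?_, ?_, ?_⟩
  · intro p
    rw [ea]
    simp
  · refine ⟨fun k => ?_, fun j hj p => ?_, fun p => ?_, fun p => ?_⟩
    · rw [er]; dsimp only; split_ifs; exacts [by omega, hb.reg k]
    · rw [ea]; split_ifs; exacts [by omega, hb.arr j hj p]
    · rw [ea, if_neg (by omega)]; exact hb.x p
    · rw [ea, if_neg (by omega)]; exact hb.y p
  · simp [seedCell, Prog.time, Expr.cost, emod]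
  · simp only [seedCell, Prog.top, Expr.top, emod, Prog.run, State.setReg_reg, Op.eval,
      Expr.eval, hi, he, if_neg hir, if_neg her, if_true]
    norm_num
    exact ⟨by omega, hρ, by omega, by omega⟩

/-- The array of seeds. -/
theorem seedProg_spec {E : Env} {s : State} {i r A e c m Q : ℕ} (hA : 2 ≤ A) (hir : i ≠ r)
    (hie : i ≠ e) (her : e ≠ r) (hc : s.reg c = m) (he : s.reg e = Q) (hQ : 0 < Q) :
    Spec E s (seedProg i r A e c) (2 + m * 12) (fun s' => s'.coins = s.coins + m ∧
      ∀ p, s'.arr A p = if p < m then E.ρ (s.coins + p) % Q else s.arr A p) := by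
  unfold seedProg
  refine Spec.mono (Spec.loop (a := 2) (d := m * 12) m 10 (fun t s' => s'.coins = s.coins + t ∧
    ∀ p, s'.arr A p = if p < t then E.ρ (s.coins + p) % Q else s.arr A p) rfl
    (by simp [Expr.cost]) le_rfl (by simpa using hc) (fun hb => ?_) (fun _ => ?_) ?_) le_rfl
    fun _ h => h
  · rw [← hc]; exact hb.reg c
  · simp
  · rintro t ht s' hb hf ⟨i1, i2⟩
    have h6 : s'.reg e = Q := by
      rw [hf.reg e]
      · exact he
      · simp [seedCell, Prog.wr]
        exact ⟨Ne.symm hie, her⟩
    refine Spec.mono (seedCell_spec (t := t) (Q := Q) hA hir her (by simp) ?_ hQ) le_rfl ?_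
    · rw [State.setReg_reg, if_neg (Ne.symm hie)]; exact h6
    · rintro s'' ⟨k1, k2⟩
      refine ⟨by rw [k1]; simp only [State.setReg_coins]; omega, fun p => ?_⟩
      rw [k2]
      simp only [State.setReg_coins, State.setReg_arr]
      rw [i2, i1]
      by_cases hp : p = t
      · subst hp
        rw [if_pos rfl, if_pos (by omega)]
      · by_cases hp' : p < t
        · rw [if_neg hp, if_pos hp', if_pos (by omega)]
        · rw [if_neg hp, if_neg hp', if_neg (by omega)]

end Vale.Agent.P315.H873
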