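import Vale.Agent.P315.H873.MulRun
import Vale.Agent.P315.H608.Cost3
import Vale.Agent.P315.H608.MkCst
import Vale.Agent.P315.H54.GoodCst

/-!
# The last composition of the multiplicative version: from the counting statement to `StmtMul`
-/

set_option autoImplicit false

namespace Vale.Agent.P315.H873

open Vale.Agent.P315 Vale.Agent.P315.H608 Vale.Agent.P315.H54
open Vale.Agent.P315.RAM (len2)
open Vale.Agent.P315.H155 (m2Strat)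
open Vale.Agent.P315.H486 (MulF ofFin main_solves2)

/-- Two thirds of the seeds are good, for the parameters `c`, `q`, `cb`, `N₁`. -/
def CountMul (ε : ℝ) (m k cd D1 : ℕ) (c : Cst2) (q cb N₁ : ℕ) : Prop :=
  ∀ x y : List ℕ,
    2 * Nat.card (Fin ((mulF c q cb N₁).N (len2 x y) + (mulF c q cb N₁).NS (len2 x y)) →
      Fin ((mulF c q cb N₁).e (len2 x y))) ≤
    3 * Nat.card {cc : Fin ((mulF c q cb N₁).N (len2 x y) + (mulF c q cb N₁).NS (len2 x y)) →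
      Fin ((mulF c q cb N₁).e (len2 x y)) //
      ED x y ≤ (mulF c q cb N₁).fin (m2Strat m k cd D1) x y (H933.visG (GF c q) x y) (ofFin cc) ∧
      (((mulF c q cb N₁).fin (m2Strat m k cd D1) x y (H933.visG (GF c q) x y) (ofFin cc) : ℕ) : ℝ) ≤
        (1 + ε) * ED x y}

/-- **The last composition.** -/
theorem stmtMul_of_count (h : ∀ ε : ℝ, 0 < ε → ∃ m k cd D1 e₀ E₁ h C0 Ak : ℕ,
      1 ≤ m ∧ 1 ≤ E₁ ∧ 1 ≤ h ∧ 1 ≤ C0 ∧ 1 ≤ Ak ∧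
      ∀ c : Cst2, CstFit c m k e₀ E₁ h C0 Ak → 2 ≤ c.ak → ∀ q : ℕ, 3 ≤ q → ∃ N0 : ℕ,
      ∀ N₁, N0 ≤ N₁ → ∀ cb, CountMul ε m k cd D1 c q cb N₁) : Top.StmtMul := by
  intro ε hε
  obtain ⟨m, k, cd, D1, e₀, E₁, hh, C0, Ak, hm, hE₁, hh1, hC0, hAk, hcount⟩ := h ε hε
  set c : Cst2 := H608.mulCst m k hh C0 (Ak + 3 * hh) e₀ E₁ 1 hm hh1 hC0 (by omega) hE₁ with hc
  have hfit : CstFit c m k e₀ E₁ hh C0 Ak :=
    ⟨rfl, rfl, rfl, rfl, le_rfl, Nat.le_add_right _ _, rfl, le_rfl, le_rfl, rfl, rfl, rfl⟩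
  have hak3 : 3 * c.h ≤ c.ak := Nat.le_add_left _ _
  have hak2 : 2 ≤ c.ak := by
    show 2 ≤ Ak + 3 * hh
    omega
  obtain ⟨k₂, hk₂⟩ := main_solves2 (m2Strat m k cd D1)
  obtain ⟨aS, haS⟩ := H514.m2Sz_leX c
  obtain ⟨q₀, hq₀, hcost⟩ := c.cost_final hak3 k₂ aS
  set q := max q₀ 3 with hq
  have hq3 : 3 ≤ q := le_max_right _ _
  obtain ⟨N0, hN0⟩ := hcount c hfit hak2 q hq3
  obtain ⟨cb, hrun⟩ := mul_run c (by omega) rfl hak2 k cd D1 (by omega : 1 ≤ q) N0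
  obtain ⟨n1, c1, hrun⟩ := hrun cb le_rfl
  obtain ⟨CS, hCS⟩ := haS cb
  obtain ⟨k₁, hk₁⟩ := hk₂ (mulF c q cb N0) (n1 + 1) c1 130 (SMul c q cb) (VMul c q)
    (fun x y => H933.tpre (GF c q) (len2 x y)) (fun x y => H933.visG (GF c q) x y) (by omega)
    (fun x y _ => (hrun c1 le_rfl x y).1) (fun x y _ => mulF_e_eq c q cb N0 _)
    (fun x y hn => (hrun c1 le_rfl x y).2 (by omega))
  obtain ⟨δ, C, hδ, hδ1, hC, hcA, hcB⟩ := hcost q (le_max_left _ _) cb k₁ CS N0 (n1 + 1)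
  refine ⟨δ, hδ, C, ?_⟩
  obtain ⟨P, kk, hP⟩ := hk₁ (fun x y D => ED x y ≤ D ∧ (D : ℝ) ≤ (1 + ε) * ED x y)
    (fun n => C * ((n : ℝ) + 1) ^ (2 - δ)) (fun x y _ => hcA x y _ (hCS _ _))
    (fun n hn => hcB n hn) (fun x y => ⟨le_rfl, by
      have : (0 : ℝ) ≤ ED x y := Nat.cast_nonneg _
      nlinarith⟩) (fun x y _ => hN0 N0 le_rfl cb x y)
  exact ⟨kk, P, hP⟩

end Vale.Agent.P315.H873
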