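import Vale.Agent.P315.H873.TopMul
import Vale.Agent.P315.H54.CountMul

/-!
# `StmtMul` from the query theorem of milestone 2
-/

set_option autoImplicit false

namespace Vale.Agent.P315.H873

open Vale.Agent.P315 Vale.Agent.P315.H155

/-- **The multiplicative statement from the query theorem.** -/
theorem stmtMul_of_QT2 (hQT : H846.StmtQT2 fam2) : Top.StmtMul := by
  refine stmtMul_of_count fun ε hε => ?_
  obtain ⟨m, k, cd, D1, e₀, E₁, h, C0, Ak, h1, h2, h3, h4, h5, H⟩ := H54.count_mulF hQT hε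
  refine ⟨m, k, cd, D1, e₀, E₁, h, C0, Ak, h1, h2, h3, h4, h5, fun c hc _ q hq => ?_⟩
  obtain ⟨N0, hN0⟩ := H c hc q hq
  exact ⟨N0, fun N₁ hN₁ cb => hN0 N₁ hN₁ cb⟩

end Vale.Agent.P315.H873
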